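import Vale.Agent.P032.S5.H825.Mo

/-!
# P032: on the unit circle of a point with four colours some palette is inside
-/

open Set Filter Topology Metric

noncomputable section

namespace Vale.Agent.P032.Six.H825

open Vale.Agent.P032.Six

variable {k : ℕ} {U : Fin k → Set ℂ} {T : ℂ → Set (Fin k)}

namespace Ctx

variable {z : ℂ} {e f : Fin k}

/-- pure points exist -/
theorem exists_pur (C : Ctx U T z e f) {t0 : ℝ} (hK : e ∈ T (z + cis t0) ∧ f ∈ T (z + cis t0)) :
    ∃ τ α : ℝ, (τ = 1 ∨ τ = -1) ∧ Pur T z τ f e α := by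
  obtain ⟨α, τ, ε, -, hτ, hε, hKα, hfree⟩ := C.exists_end hK one_pos
  have hτ1 : |τ| = 1 := by rcases hτ with rfl | rfl <;> simp
  have hττ : τ * τ = 1 := by rcases hτ with rfl | rfl <;> norm_num
  refine ⟨-τ, α, by rcases hτ with rfl | rfl <;> simp, hKα.symm, ⟨ε, hε, fun s h1 h2 => ?_⟩, ?_⟩
  · rw [show α - -τ * s = α + τ * s by ring]; exact hfree s h1 h2
  · intro δ hδ
    obtain ⟨t, ht, hft⟩ := C.swap.freq_no hKα.symm (lt_min hδ hε)
    -- `t = α + τ * r`
    set r := τ * (t - α) with hr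
    have htr : t = α + τ * r := by
      rw [hr, ← mul_assoc, hττ]; ring
    have hrabs : |r| < min δ ε := by rw [hr, abs_mul, hτ1, one_mul]; exact ht
    have hr0 : r < 0 := by
      by_contra hcon
      push Not at hcon
      rcases hcon.lt_or_eq with h1 | h1
      · rw [abs_of_pos h1] at hrabs
        have h2 := hfree r h1 (lt_of_lt_of_le hrabs (min_le_right _ _))
        rw [← htr] at h2
        rcases C.hM _ (dist_add_cis z t) with h3 | h3
        · exact h2 h3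
        · exact hft h3
      · rw [← h1, mul_zero, add_zero] at htr
        rw [htr] at hft
        exact hft hKα.2
    rw [abs_of_neg hr0] at hrabs
    refine ⟨-r, by linarith, lt_of_lt_of_le hrabs (min_le_left _ _), ?_⟩
    rw [show α + -τ * -r = α + τ * r by ring, ← htr]
    exact hft

/-- the pure predicate for points -/
def PurP (T : ℂ → Set (Fin k)) (z : ℂ) (τ : ℝ) (e f : Fin k) (y : ℂ) : Prop :=
  ∃ α, y = z + cis α ∧ Pur T z τ e f α

theorem PurP.dist {τ : ℝ} {y : ℂ} (h : PurP T z τ e f y) : dist y z = 1 := by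
  obtain ⟨α, rfl, -⟩ := h
  exact dist_add_cis z α

theorem PurP.both {τ : ℝ} {y : ℂ} (h : PurP T z τ e f y) : e ∈ T y ∧ f ∈ T y := by
  obtain ⟨α, rfl, h⟩ := h
  exact h.K

theorem purP_next (C : Ctx U T z e f) {τ : ℝ} {y y' : ℂ} (P : PurP T z τ e f y)
    (hy' : dist y' z = 1) (hyy : dist y y' = 1) : PurP T z τ f e y' := by
  obtain ⟨α, rfl, P⟩ := P
  obtain ⟨ω, hω, rfl⟩ := two_nbs hy' hyy
  exact ⟨_, rfl, C.pur_next P hω⟩

theorem moP (C : Ctx U T z e f) {τ : ℝ} (hτ : τ = 1 ∨ τ = -1) {y : ℂ} (P : PurP T z τ e f y)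
    {V : Set ℂ} (hV : V ∈ 𝓝 y) :
    ∀ᶠ x in 𝓝 z, dist x y < 1 → ∃ w ∈ V, dist w x = 1 ∧ 1 < dist w z ∧
      ∀ᶠ w' in 𝓝 w, e ∉ Pal U w' ∧ f ∉ Pal U w' := by
  obtain ⟨α, rfl, P⟩ := P
  exact C.mo hτ P hV

/-- the colours of the centre at a point with both letters -/
theorem card_inter (C : Ctx U T z e f) {y : ℂ} (hy : dist y z = 1) (h : e ∈ T y ∧ f ∈ T y) :
    (T y ∩ T z).ncard = 2 := by
  have h1 : T y ∩ T z = T y \ {e, f} := by
    ext m
    simp only [mem_inter_iff, Set.mem_sdiff, mem_insert_iff, mem_singleton_iff, not_or]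
    constructor
    · rintro ⟨h1, h2⟩
      exact ⟨h1, by rintro rfl; exact C.ez h2, by rintro rfl; exact C.fz h2⟩
    · rintro ⟨h1, h2, h3⟩
      refine ⟨h1, ?_⟩
      rcases C.cov m with h4 | h4 | h4
      · exact h4
      · exact absurd h4 h2
      · exact absurd h4 h3
  have h2 : ({e, f} : Set (Fin k)) ⊆ T y := by
    rintro m (rfl | rfl)
    · exact h.1
    · exact h.2
  rw [h1, Set.ncard_sdiff h2 (Set.toFinite _), C.card4 hy h, Set.ncard_pair C.hef]

/-- alternation -/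
theorem alt (C : Ctx U T z e f) {y y' : ℂ} (hy : dist y z = 1) (hy' : dist y' z = 1)
    (hyy : dist y y' = 1) (h : e ∈ T y ∧ f ∈ T y) {m : Fin k} (hm : m ∈ T z) :
    m ∈ T y' ↔ m ∉ T y := by
  have h' := C.both hy hy' hyy h
  constructor
  · intro h1 h2
    exact C.noshare hy hy' hyy h h2 h1 hm
  · intro h1
    have hdis : Disjoint (T y ∩ T z) (T y' ∩ T z) := by
      rw [Set.disjoint_left]
      rintro a ⟨ha, haz⟩ ⟨ha', -⟩
      exact C.noshare hy hy' hyy h ha ha' haz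
    have hun : (T y ∩ T z) ∪ (T y' ∩ T z) = T z := by
      refine Set.eq_of_subset_of_ncard_le (union_subset inter_subset_right inter_subset_right) ?_
        (Set.toFinite _)
      rw [Set.ncard_union_eq hdis (Set.toFinite _) (Set.toFinite _), C.card_inter hy h,
        C.card_inter hy' h', C.four]
    have h2 : m ∈ (T y ∩ T z) ∪ (T y' ∩ T z) := by rw [hun]; exact hm
    rcases h2 with h2 | h2
    · exact absurd h2.1 h1
    · exact h2.1

/-- a point whose palette is inside that of `y`, apart from the letters -/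
theorem pal_of (C : Ctx U T z e f) {y w : ℂ} (hw : T w ⊆ T y) (he : e ∉ T w) (hf : f ∉ T w) :
    T w ⊆ T y ∩ T z := by
  intro m hm
  refine ⟨hw hm, ?_⟩
  rcases C.cov m with h1 | h1 | h1
  · exact h1
  · exact absurd (h1 ▸ hm) he
  · exact absurd (h1 ▸ hm) hf

/-- the whole hexagon from one neighbour -/
theorem hexa {z y y' : ℂ} (hy : dist y z = 1) (hy' : dist y' z = 1) (hyy : dist y y' = 1) :
    dist (z + y' - y) z = 1 ∧ dist y' (z + y' - y) = 1 ∧
    dist (z + y - y') z = 1 ∧ dist y (z + y - y') = 1 ∧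
    dist (2 * z - y') z = 1 ∧ dist (z + y - y') (2 * z - y') = 1 ∧
    dist (2 * z - y) z = 1 ∧ dist (z + y' - y) (2 * z - y) = 1 ∧
    dist (2 * z - y') (2 * z - y) = 1 := by
  rw [dist_eq_norm] at hy hy' hyy
  have e1 : ‖y' - y‖ = 1 := by rw [← norm_neg, neg_sub]; exact hyy
  have e2 : ‖z - y‖ = 1 := by rw [← norm_neg, neg_sub]; exact hy
  have e3 : ‖z - y'‖ = 1 := by rw [← norm_neg, neg_sub]; exact hy'
  refine ⟨?_, ?_, ?_, ?_, ?_, ?_, ?_, ?_, ?_⟩
  · rw [dist_eq_norm, show z + y' - y - z = y' - y by ring]; exact e1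
  · rw [dist_eq_norm, show y' - (z + y' - y) = y - z by ring]; exact hy
  · rw [dist_eq_norm, show z + y - y' - z = y - y' by ring]; exact hyy
  · rw [dist_eq_norm, show y - (z + y - y') = y' - z by ring]; exact hy'
  · rw [dist_eq_norm, show 2 * z - y' - z = z - y' by ring]; exact e3
  · rw [dist_eq_norm, show z + y - y' - (2 * z - y') = y - z by ring]; exact hy
  · rw [dist_eq_norm, show 2 * z - y - z = z - y by ring]; exact e2
  · rw [dist_eq_norm, show z + y' - y - (2 * z - y) = y' - z by ring]; exact hy'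
  · rw [dist_eq_norm, show 2 * z - y' - (2 * z - y) = y - y' by ring]; exact hyy

/-- a point at distance one from `x` near `y''`, neither `y` nor opposite -/
theorem no_exact (C : Ctx U T z e f) {y x w : ℂ} {P : Set (Fin k)} (hx : dist x y = 1)
    (hJ : ∀ᶠ q in 𝓝[sphere y 1] x, T q = P) (hwx : dist w x = 1) (h1 : w ≠ y)
    (h2 : dist w y < 2) {m : Fin k} (hm : m ∈ P) : m ∉ Pal U w := by
  intro hmw
  have hJ' : ∀ᶠ q in 𝓝[sphere y 1] x, m ∈ Pal U q := hJ.mono fun q hq => C.irr.sub q (by rw [hq]; exact hm)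
  rcases C.irr.mx.partner_line hx hJ' (by rw [dist_comm]; exact hwx) hmw with h3 | h3
  · exact h1 h3
  · have h4 : w - y = 2 * (x - y) := by linear_combination h3
    have h5 : ‖x - y‖ = 1 := by rw [← dist_eq_norm]; exact hx
    rw [dist_eq_norm, h4, norm_mul, h5] at h2
    norm_num at h2

/-- `|y - y''| < 2` for second neighbours -/
theorem second_lt {z y y' : ℂ} (hy : dist y z = 1) (hy' : dist y' z = 1) (hyy : dist y y' = 1) :
    1 < dist (z + y' - y) y ∧ dist (z + y' - y) y < 2 := by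
  have e1 := dt_one hy
  have e2 := dt_one hy'
  have e3 : 2 * dt (y - z) (y' - z) = 1 := by
    have := dt_one hyy
    have h2 : y - y' = (y - z) - (y' - z) := by ring
    rw [h2] at this
    have h3 : dt ((y - z) - (y' - z)) ((y - z) - (y' - z)) = dt (y - z) (y - z)
      - 2 * dt (y - z) (y' - z) + dt (y' - z) (y' - z) := by simp [dt]; ring
    linarith
  have h4 : dist (z + y' - y) y ^ 2 = 3 := by
    rw [sqd]
    have h2 : z + y' - y - y = (y' - z) - 2 * (y - z) := by ring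
    rw [h2]
    have h3 : dt ((y' - z) - 2 * (y - z)) ((y' - z) - 2 * (y - z)) = dt (y' - z) (y' - z)
      - 4 * dt (y - z) (y' - z) + 4 * dt (y - z) (y - z) := by simp [dt]; ring
    rw [h3]; linarith
  have := dist_nonneg (x := z + y' - y) (y := y)
  constructor <;> nlinarith

/-- **(F2)** near `z` no palette on `S(y)` is inside `T y` -/
theorem f2 (C : Ctx U T z e f) {τ : ℝ} (hτ : τ = 1 ∨ τ = -1) {y : ℂ} (P : PurP T z τ e f y) :
    ∀ᶠ x in 𝓝 z, dist x y = 1 → ¬ T x ⊆ T y := by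
  have hy := P.dist
  obtain ⟨y', hy', hyy⟩ := exists_nb hy
  have hyy' : dist y' y = 1 := by rw [dist_comm]; exact hyy
  obtain ⟨a1, a2, a3, a4, a5, a6, -, -, -⟩ := hexa hy hy' hyy
  have P' := C.purP_next P hy' hyy
  have P2 := C.swap.purP_next P' a1 a2
  have P5 := C.purP_next P a3 a4
  have P4 := C.swap.purP_next P5 a5 a6
  have K := P.both
  -- the second neighbours are not near `y`
  have b1 := second_lt hy hy' hyy
  have b2 : 1 < dist (2 * z - y') y ∧ dist (2 * z - y') y < 2 := by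
    have := second_lt hy a3 a4
    rwa [show z + (z + y - y') - y = 2 * z - y' by ring] at this
  have hcont : Continuous fun w : ℂ => dist w y := by fun_prop
  have key : ∀ y2, PurP T z τ e f y2 → (∀ m ∈ T z, m ∈ T y2 ↔ m ∈ T y) →
      1 < dist y2 y → dist y2 y < 2 →
      ∀ᶠ x in 𝓝 z, dist x y2 < 1 → dist x y = 1 → ¬ T x ⊆ T y := by
    intro y2 Q hQ h1 h2
    have hV : ({w | 1 < dist w y} ∩ {w | dist w y < 2} ∩ {w | T w ⊆ T y2}) ∈ 𝓝 y2 :=
      inter_mem (inter_mem ((isOpen_lt continuous_const hcont).mem_nhds h1)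
        ((isOpen_lt hcont continuous_const).mem_nhds h2)) (C.irr.nhd y2)
    filter_upwards [C.moP hτ Q hV, C.irr.nhd z] with x hx hxz hx2 hxy hsub
    obtain ⟨w, ⟨⟨hw1, hw2⟩, hw3⟩, hwx, -, hwef⟩ := hx hx2
    have hw1 : 1 < dist w y := hw1
    have hw3 : T w ⊆ T y2 := hw3
    obtain ⟨he, hf⟩ := hwef.self_of_nhds
    have hTx : T x ⊆ T y ∩ T z := subset_inter hsub hxz
    have hJ := C.irr.pair_open (C.card_inter hy K) inter_subset_left hTx (z := y) (y := x)
    have hTw := C.pal_of hw3 (fun h => he (C.irr.sub w h)) (fun h => hf (C.irr.sub w h))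
    obtain ⟨m, hm⟩ := C.irr.ne w
    have hm2 := hTw hm
    have hmP : m ∈ T y ∩ T z := ⟨(hQ m hm2.2).1 hm2.1, hm2.2⟩
    exact C.no_exact hxy hJ hwx (by rintro rfl; simp at hw1; linarith) hw2 hmP (C.irr.sub w hm)
  have hQ2 : ∀ m ∈ T z, m ∈ T (z + y' - y) ↔ m ∈ T y := by
    intro m hm
    rw [C.alt hy' a1 a2 P'.both.symm hm, C.alt hy hy' hyy K hm, not_not]
  have hQ4 : ∀ m ∈ T z, m ∈ T (2 * z - y') ↔ m ∈ T y := by
    intro m hm
    rw [C.alt a3 a5 a6 P5.both.symm hm, C.alt hy a3 a4 K hm, not_not]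
  filter_upwards [key _ P2 hQ2 b1.1 b1.2, key _ P4 hQ4 b2.1 b2.2, C.irr.nhd z,
    ball_mem_nhds z one_pos] with x h1 h2 h3 h4 hxy
  by_cases hxz : x = z
  · rw [hxz]
    intro hsub
    have h5 : T z ⊆ T y ∩ T z := subset_inter hsub Subset.rfl
    have h6 := Set.ncard_le_ncard h5 (Set.toFinite _)
    rw [C.four, C.card_inter hy K] at h6
    omega
  · rcases G2 hy hy' hyy hxy hxz h4 with h5 | h5
    · exact h1 h5 hxy
    · exact h2 h5 hxy

/-- two unit circles meet in two points -/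
theorem two_circles {z y' y'' x : ℂ} (h1 : dist z y' = 1) (h2 : dist z y'' = 1)
    (h3 : dist x y' = 1) (h4 : dist x y'' = 1) (hne : y' ≠ y'') :
    x = z ∨ x = y' + y'' - z := by
  -- `x - z` is orthogonal to `y' - y''`
  set u := y' - z with hu
  set v := y'' - z with hv
  set d := x - z with hd
  have e1 : dt u u = 1 := dt_one (by rw [dist_comm]; exact h1)
  have e2 : dt v v = 1 := dt_one (by rw [dist_comm]; exact h2)
  have e3 : dt d d = 2 * dt d u := by
    have := dt_one h3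
    have h5 : x - y' = d - u := by rw [hd, hu]; ring
    rw [h5] at this
    have h6 : dt (d - u) (d - u) = dt d d - 2 * dt d u + dt u u := by simp [dt]; ring
    linarith
  have e4 : dt d d = 2 * dt d v := by
    have := dt_one h4
    have h5 : x - y'' = d - v := by rw [hd, hv]; ring
    rw [h5] at this
    have h6 : dt (d - v) (d - v) = dt d d - 2 * dt d v + dt v v := by simp [dt]; ring
    linarith
  by_cases hd0 : d = 0
  · left; rw [hd] at hd0; exact sub_eq_zero.1 hd0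
  right
  have hDpos := dt_self_pos hd0
  -- `|d - u - v|² = 0`
  have hg := gram u v d d
  rw [det_sq, e1, e2] at hg
  set D := dt d d with hD
  set c := dt u v with hc
  have hdu : dt d u = D / 2 := by linarith
  have hdv : dt d v = D / 2 := by linarith
  rw [hdu, hdv] at hg
  have hc1 : c ≠ 1 := by
    intro h5
    have h6 : dt (u - v) (u - v) = 0 := by
      have h7 : dt (u - v) (u - v) = dt u u - 2 * dt u v + dt v v := by simp [dt]; ring
      rw [h7, e1, e2, ← hc, h5]; ring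
    by_contra
    have h8 : u - v ≠ 0 := by
      intro h9
      apply hne
      have : y' - y'' = 0 := by rw [show y' - y'' = u - v by rw [hu, hv]; ring]; exact h9
      exact sub_eq_zero.1 this
    have := dt_self_pos h8
    linarith
  have h5 : (1 - c) * (D * (2 * (1 + c) - D)) = 0 := by nlinarith
  have h6 : D = 2 * (1 + c) := by
    rcases mul_eq_zero.1 h5 with h7 | h7
    · exact absurd (by linarith) hc1
    · rcases mul_eq_zero.1 h7 with h8 | h8
      · exact absurd h8 hDpos.ne'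
      · linarith
  have h7 : dt (d - u - v) (d - u - v) = 0 := by
    have h8 : dt (d - u - v) (d - u - v) = dt d d + dt u u + dt v v - 2 * dt d u - 2 * dt d v
      + 2 * dt u v := by simp [dt]; ring
    rw [h8, hdu, hdv, e1, e2, ← hc, ← hD, h6]; ring
  have h8 : d - u - v = 0 := by
    by_contra h9
    have := dt_self_pos h9
    linarith
  rw [hd, hu, hv] at h8
  linear_combination h8

/-- **(I), one step** -/
theorem step (C : Ctx U T z e f) {τ : ℝ} (hτ : τ = 1 ∨ τ = -1) {y0 y' : ℂ}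
    (P : PurP T z τ e f y0) (hy' : dist y' z = 1) (hyy : dist y0 y' = 1)
    {N : Set ℂ} (hN : N ∈ 𝓝 z) :
    ∀ᶠ x in 𝓝 z, dist x y' = 1 → dist x y0 < 1 →
      ∃ x'' ∈ N, dist x'' (z + y0 - y') = 1 ∧ dist x'' y0 < 1 ∧
        ∃ m ∈ T y0 ∩ T z, T x ∩ (T y0 ∩ T z) = {m} ∧ T x'' ∩ (T y0 ∩ T z) = {m} := by
  have hy0 := P.dist
  have K := P.both
  obtain ⟨-, -, a3, a4, -, -, -, -, -⟩ := hexa hy0 hy' hyy
  set y'' := z + y0 - y' with hy''
  have P' := C.purP_next P hy' hyy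
  have P'' := C.purP_next P a3 a4
  have hy0' : dist y0 z = 1 := hy0
  have hzy0 : dist z y0 = 1 := by rw [dist_comm]; exact hy0
  have hzy'' : dist z y'' = 1 := by rw [dist_comm]; exact a3
  have hzy' : dist z y' = 1 := by rw [dist_comm]; exact hy'
  -- crossing point near `z`
  have hNz : N ∩ {x | T x ⊆ T z} ∩ {x | dist x y'' = 1 → ¬ T x ⊆ T y''} ∩ ball z (1 / 4) ∈ 𝓝 z :=
    inter_mem (inter_mem (inter_mem hN (C.irr.nhd z)) (C.swap.f2 hτ P''))
      (ball_mem_nhds z (by norm_num))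
  have htri := ne_of_tri (a := z) (b := y'') (c := y0) hzy'' hzy0 (by rw [dist_comm]; exact a4)
  have hcross := cross_nhds (c := y'') (q₀ := y0) (p := z) hzy'' hzy0
    (by intro h; rw [h] at a4; simp at a4) htri.2 hNz
  have hV : ({w | T w ⊆ T y0} ∩ {w | ∃ p' ∈ N ∩ {x | T x ⊆ T z} ∩
      {x | dist x y'' = 1 → ¬ T x ⊆ T y''} ∩ ball z (1 / 4), dist p' y'' = 1 ∧ dist p' w = 1}
      ∩ ball y0 (1 / 4)) ∈ 𝓝 y0 :=
    inter_mem (inter_mem (C.irr.nhd y0) hcross) (ball_mem_nhds y0 (by norm_num))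
  filter_upwards [C.moP hτ P hV, C.swap.f2 hτ P', C.irr.nhd z,
    ball_mem_nhds z (show (0 : ℝ) < 1 / 4 by norm_num)] with x hx hxf2 hxT hxb hxy' hxy0
  have hxb : dist x z < 1 / 4 := hxb
  obtain ⟨w, ⟨⟨hwT, hwc⟩, hwb⟩, hwx, hwz, hwef⟩ := hx hxy0
  obtain ⟨x2, ⟨⟨⟨hx2N, hx2T⟩, hx2f⟩, hx2b⟩, hx2y, hx2w⟩ := hwc
  have hwT : T w ⊆ T y0 := hwT
  have hx2T : T x2 ⊆ T z := hx2T
  have hx2b : dist x2 z < 1 / 4 := hx2b
  have hwb : dist w y0 < 1 / 4 := hwb
  have hx2f := hx2f hx2y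
  refine ⟨x2, hx2N, hx2y, ?_, ?_⟩
  · -- `G3` with exchanged roles
    refine G3 (z := y0) (y0 := z) (y5 := y'') (x := w) (w := x2) hzy0
      (by rw [dist_comm]; exact a4) hzy'' hx2y hx2w (by linarith) (by linarith) hwz
  set P0 := T y0 ∩ T z with hP0
  -- colours near `w`
  have hnear : ∀ᶠ w' in 𝓝 w, T w' ⊆ P0 := by
    filter_upwards [hwef, C.irr.nhd w] with w' h1 h2
    exact C.pal_of (h2.trans hwT) (fun h => h1.1 (C.irr.sub w' h)) (fun h => h1.2 (C.irr.sub w' h))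
  have hx2x : x2 ≠ x := by
    rintro rfl
    rcases two_circles hzy' hzy'' hxy' hx2y (by
      intro h
      have := ne_of_tri (a := y') (b := y0) (c := z) (by rw [dist_comm]; exact hyy) hy' hy0
      apply this.2
      rw [hy''] at h
      linear_combination -h) with h1 | h1
    · rw [h1, hzy0] at hxy0; exact lt_irrefl _ hxy0
    · have h2 : x2 = y0 := by rw [h1, hy'']; ring
      rw [h2, hy0] at hxb
      norm_num at hxb
  have hx2x2 : dist x2 x < 2 := by
    have h1 := dist_triangle x2 z x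
    have h2 : dist z x < 1 / 4 := by rw [dist_comm]; exact hxb
    linarith
  -- if `m ∈ T x`, the other colour `m'` is absent at `x2`
  have hstep : ∀ m ∈ P0, m ∈ T x → ∀ m' ∈ P0, m' ≠ m → m' ∉ T x2 := by
    intro m hm hmx m' hm' hne hcon
    have hJ : ∀ᶠ q in 𝓝[sphere x 1] w, m' ∈ Pal U q := by
      filter_upwards [mem_nhdsWithin_of_mem_nhds hnear, self_mem_nhdsWithin] with q h1 h2
      by_contra h3
      have h4 : T q ⊆ {m} := by
        intro i hi
        have hPm : P0 = {m, m'} := by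
          symm
          refine Set.eq_of_subset_of_ncard_le ?_ ?_ (Set.toFinite _)
          · rintro j (rfl | rfl)
            · exact hm
            · exact hm'
          · rw [C.card_inter hy0 K, Set.ncard_pair hne.symm]
        have h5 := h1 hi
        rw [hPm] at h5
        rcases h5 with h5 | h5
        · exact h5
        · exact absurd (h5 ▸ C.irr.sub q hi) h3
      exact C.irr.mx.notMem' (C.irr.mem_of_single h4) h2 (C.irr.sub x hmx)
    rcases C.irr.mx.partner_line hwx hJ (by rw [dist_comm]; exact hx2w) (C.irr.sub x2 hcon)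
      with h3 | h3
    · exact hx2x h3
    · have h4 : x2 - x = 2 * (w - x) := by linear_combination h3
      have h5 : ‖w - x‖ = 1 := by rw [← dist_eq_norm]; exact hwx
      rw [dist_eq_norm, h4, norm_mul, h5] at hx2x2
      norm_num at hx2x2
  -- `x` has a colour of `P0`
  have hone : ∀ y1 x1 : ℂ, dist y1 z = 1 → dist y0 y1 = 1 → T x1 ⊆ T z → ¬ T x1 ⊆ T y1 →
      ∃ m ∈ P0, m ∈ T x1 := by
    intro y1 x1 h1 h2 h3 h4
    obtain ⟨m, hm, hm'⟩ := Set.not_subset.1 h4
    refine ⟨m, ⟨?_, h3 hm⟩, hm⟩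
    by_contra h5
    exact hm' ((C.alt hy0 h1 h2 K (h3 hm)).2 h5)
  obtain ⟨m, hm, hmx⟩ := hone y' x hy' hyy hxT (hxf2 hxy')
  obtain ⟨m2, hm2, hmx2⟩ := hone y'' x2 a3 a4 hx2T hx2f
  have hmm : m2 = m := by
    by_contra hne
    exact hstep m hm hmx m2 hm2 hne hmx2
  refine ⟨m, hm, ?_, ?_⟩
  · apply Subset.antisymm
    · rintro i ⟨hi1, hi2⟩
      by_contra hne
      have hne : i ≠ m := hne
      exact hstep i hi2 hi1 m hm hne.symm (hmm ▸ hmx2)
    · rintro i rfl
      exact ⟨hmx, hm⟩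
  · apply Subset.antisymm
    · rintro i ⟨hi1, hi2⟩
      by_contra hne
      have hne : i ≠ m := hne
      exact hstep m hm hmx i hi2 hne hi1
    · rintro i rfl
      exact ⟨hmm ▸ hmx2, hm⟩

/-- half branch of the circle `S(y')` at `z` inside `D(y0)` -/
theorem branch {z y0 y' : ℂ} (hz' : dist z y' = 1) (hz0 : dist z y0 = 1) (h0' : dist y0 y' = 1) :
    ∃ (c : ℝ → ℂ), Continuous c ∧ c 0 = z ∧ (∀ s, dist (c s) y' = 1) ∧
      (∀ s, 0 < s → s < 1 → dist (c s) y0 < 1) ∧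
      ∀ δ > 0, ∀ᶠ x in 𝓝 z, dist x y' = 1 → dist x y0 < 1 → ∃ s, 0 < s ∧ s < δ ∧ x = c s := by
  have hpi := Real.pi_gt_three
  obtain ⟨β, hβ⟩ := exists_cis (u := z - y') (by rw [← dist_eq_norm]; exact hz')
  have hzβ : z = y' + cis β := by rw [← hβ]; ring
  obtain ⟨ω, hω, hy0⟩ := two_nbs (z := y') (a := β) (y' := y0) h0' (by rw [← hzβ]; exact hz0)
  obtain ⟨σ, hσ, hσω⟩ : ∃ σ : ℝ, (σ = 1 ∨ σ = -1) ∧ ω = σ * (Real.pi / 3) := by
    rcases hω with rfl | rfl
    · exact ⟨1, Or.inl rfl, by ring⟩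
    · exact ⟨-1, Or.inr rfl, by ring⟩
  have hσ1 : |σ| = 1 := by rcases hσ with rfl | rfl <;> simp
  have hσσ : σ * σ = 1 := by rcases hσ with rfl | rfl <;> norm_num
  have habs : ∀ s : ℝ, |β + σ * s - (β + ω)| = |s - Real.pi / 3| := by
    intro s
    rw [hσω, show β + σ * s - (β + σ * (Real.pi / 3)) = σ * (s - Real.pi / 3) by ring,
      abs_mul, hσ1, one_mul]
  refine ⟨fun s => y' + cis (β + σ * s), ?_, ?_, ?_, ?_, ?_⟩
  · exact continuous_const.add (continuous_cis.comp (by fun_prop))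
  · show y' + cis (β + σ * 0) = z
    rw [mul_zero, add_zero, ← hzβ]
  · intro s; exact dist_add_cis y' _
  · intro s h1 h2
    show dist (y' + cis (β + σ * s)) y0 < 1
    rw [hy0]
    refine near_cis y' ?_
    rw [habs, abs_lt]
    constructor <;> linarith
  · intro δ hδ
    have h1 := local_param y' β (δ := min δ 1) (lt_min hδ one_pos)
    rw [← hzβ] at h1
    filter_upwards [h1] with x hx hxy' hxy0
    obtain ⟨t, ht, hxt⟩ := hx hxy'
    set s := σ * (t - β) with hs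
    have hts : t = β + σ * s := by rw [hs, ← mul_assoc, hσσ]; ring
    have hsabs : |s| < min δ 1 := by rw [hs, abs_mul, hσ1, one_mul]; exact ht
    have hs1 : |s| < 1 := lt_of_lt_of_le hsabs (min_le_right _ _)
    have hs0 : 0 < s := by
      by_contra hcon
      push Not at hcon
      have h2 := sq_cis y' (β + σ * s) (β + ω)
      have h3 : Real.cos (β + σ * s - (β + ω)) ≤ 1 / 2 := by
        rw [← Real.cos_abs, habs, ← Real.cos_pi_div_three]
        rw [abs_lt] at hs1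
        have h4 : |s - Real.pi / 3| = Real.pi / 3 - s := by
          rw [abs_of_nonpos (by linarith)]; ring
        rw [h4]
        exact Real.cos_le_cos_of_nonneg_of_le_pi (by linarith) (by linarith) (by linarith)
      rw [← hts, ← hxt, ← hy0] at h2
      rw [← hts] at h3
      have := dist_nonneg (x := x) (y := y0)
      nlinarith
    rw [abs_of_pos hs0] at hsabs
    exact ⟨s, hs0, lt_of_lt_of_le hsabs (min_le_left _ _), by rw [hxt, hts]⟩

/-- one colour on the half branch -/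
theorem mono (C : Ctx U T z e f) {y0 y' : ℂ} (hy0 : dist y0 z = 1) (hy' : dist y' z = 1)
    (hyy : dist y0 y' = 1) {P : Set (Fin k)} (hP : P.ncard = 2)
    (hev : ∀ᶠ x in 𝓝 z, dist x y' = 1 → dist x y0 < 1 → ∃ m ∈ P, T x ∩ P = {m}) :
    ∃ m ∈ P, ∀ᶠ x in 𝓝 z, dist x y' = 1 → dist x y0 < 1 → T x ∩ P = {m} := by
  have hz' : dist z y' = 1 := by rw [dist_comm]; exact hy'
  have hz0 : dist z y0 = 1 := by rw [dist_comm]; exact hy0
  obtain ⟨c, hc, hc0, hc1, hc2, hc3⟩ := branch hz' hz0 hyy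
  have hev' : ∀ᶠ s in 𝓝 (0 : ℝ), dist (c s) y' = 1 → dist (c s) y0 < 1 →
      ∃ m ∈ P, T (c s) ∩ P = {m} := by
    have h1 : Tendsto c (𝓝 0) (𝓝 (c 0)) := hc.continuousAt
    rw [hc0] at h1
    exact h1.eventually hev
  obtain ⟨δ, hδ, hδ'⟩ := Metric.eventually_nhds_iff.1 hev'
  set r := min δ 1 with hr
  have hr0 : 0 < r := lt_min hδ one_pos
  have hall : ∀ s, 0 < s → s < r → ∃ m ∈ P, T (c s) ∩ P = {m} := by
    intro s h1 h2
    refine hδ' (y := s) ?_ (hc1 s) (hc2 s h1 (lt_of_lt_of_le h2 (min_le_right _ _)))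
    rw [Real.dist_eq, sub_zero, abs_of_pos h1]
    exact lt_of_lt_of_le h2 (min_le_left _ _)
  obtain ⟨a, b, hab, hPab⟩ := Set.ncard_eq_two.1 hP
  have hcl : ∀ i, IsClosed {s : ℝ | i ∈ T (c s)} := fun i => (C.irr.closed i).preimage hc
  have hpre : IsPreconnected (Ioo (0 : ℝ) r) := isPreconnected_Ioo
  have hone : ∀ i ∈ P, ∀ j ∈ P, i ≠ j → ∀ s, 0 < s → s < r → ¬ (i ∈ T (c s) ∧ j ∈ T (c s)) := by
    rintro i hi j hj hij s h1 h2 ⟨h3, h4⟩
    obtain ⟨m, -, hm⟩ := hall s h1 h2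
    have h5 : i ∈ T (c s) ∩ P := ⟨h3, hi⟩
    have h6 : j ∈ T (c s) ∩ P := ⟨h4, hj⟩
    rw [hm] at h5 h6
    exact hij (h5.trans h6.symm)
  have hconst : ∃ m ∈ P, ∀ s, 0 < s → s < r → T (c s) ∩ P = {m} := by
    have hfin : ∀ i ∈ P, (∀ s, 0 < s → s < r → i ∈ T (c s)) →
        ∀ s, 0 < s → s < r → T (c s) ∩ P = {i} := by
      intro i hi h1 s h2 h3
      obtain ⟨m, -, hm⟩ := hall s h2 h3
      have h5 : i ∈ T (c s) ∩ P := ⟨h1 s h2 h3, hi⟩
      rw [hm] at h5 ⊢
      have h6 : i = m := h5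
      rw [h6]
    have ha : a ∈ P := by rw [hPab]; simp
    have hb : b ∈ P := by rw [hPab]; simp
    by_cases hA : ∀ s, 0 < s → s < r → a ∈ T (c s)
    · exact ⟨a, ha, hfin a ha hA⟩
    by_cases hB : ∀ s, 0 < s → s < r → b ∈ T (c s)
    · exact ⟨b, hb, hfin b hb hB⟩
    exfalso
    push Not at hA hB
    obtain ⟨s1, h1, h2, h3⟩ := hA
    obtain ⟨s2, h4, h5, h6⟩ := hB
    have hcov : ∀ s, 0 < s → s < r → a ∈ T (c s) ∨ b ∈ T (c s) := by
      intro s h7 h8
      obtain ⟨m, hmP, hm⟩ := hall s h7 h8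
      have h9 : m ∈ T (c s) ∩ P := by rw [hm]; rfl
      rw [hPab] at hmP
      rcases hmP with rfl | hmP
      · exact Or.inl h9.1
      · have : m = b := hmP
        rw [← this]; exact Or.inr h9.1
    have h7 := isPreconnected_closed_iff.1 hpre _ _ (hcl a) (hcl b)
      (fun s hs => hcov s hs.1 hs.2)
      ⟨s2, ⟨h4, h5⟩, (hcov s2 h4 h5).resolve_right h6⟩
      ⟨s1, ⟨h1, h2⟩, (hcov s1 h1 h2).resolve_left h3⟩
    obtain ⟨s, hs, hs1, hs2⟩ := h7
    exact hone a ha b hb hab s hs.1 hs.2 ⟨hs1, hs2⟩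
  obtain ⟨m, hm, hms⟩ := hconst
  refine ⟨m, hm, ?_⟩
  filter_upwards [hc3 r hr0] with x hx h1 h2
  obtain ⟨s, h3, h4, rfl⟩ := hx h1 h2
  exact hms s h3 h4

/-- points on the half branch -/
theorem freq_branch {z y0 y' : ℂ} (hy0 : dist y0 z = 1) (hy' : dist y' z = 1)
    (hyy : dist y0 y' = 1) : ∃ᶠ x in 𝓝 z, dist x y' = 1 ∧ dist x y0 < 1 := by
  have hz' : dist z y' = 1 := by rw [dist_comm]; exact hy'
  have hz0 : dist z y0 = 1 := by rw [dist_comm]; exact hy0
  obtain ⟨c, hc, hc0, hc1, hc2, hc3⟩ := branch hz' hz0 hyy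
  have h1 : Tendsto c (𝓝[>] 0) (𝓝 z) := by
    have : Tendsto c (𝓝 0) (𝓝 (c 0)) := hc.continuousAt
    rw [hc0] at this
    exact this.mono_left nhdsWithin_le_nhds
  have h2 : ∀ᶠ s in 𝓝[>] (0 : ℝ), dist (c s) y' = 1 ∧ dist (c s) y0 < 1 := by
    have h3 : ∀ᶠ s in 𝓝[>] (0 : ℝ), s < 1 := (eventually_lt_nhds one_pos).filter_mono
      nhdsWithin_le_nhds
    filter_upwards [h3, self_mem_nhdsWithin] with s h4 h5
    exact ⟨hc1 s, hc2 s h5 h4⟩
  exact h1.frequently h2.frequently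

/-- **inner colour** -/
theorem inner (C : Ctx U T z e f) {τ : ℝ} (hτ : τ = 1 ∨ τ = -1) {y0 y' : ℂ}
    (P : PurP T z τ e f y0) (hy' : dist y' z = 1) (hyy : dist y0 y' = 1) :
    ∃ m ∈ T y0 ∩ T z, ∀ᶠ x in 𝓝 z, (dist x y' = 1 ∨ dist x (z + y0 - y') = 1) →
      dist x y0 < 1 → T x ∩ (T y0 ∩ T z) = {m} := by
  have hy0 := P.dist
  have K := P.both
  obtain ⟨-, -, a3, a4, -, -, -, -, -⟩ := hexa hy0 hy' hyy
  have hP := C.card_inter hy0 K
  have hsw : z + y0 - (z + y0 - y') = y' := by ring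
  have s1 : ∀ᶠ x in 𝓝 z, dist x y' = 1 → dist x y0 < 1 →
      ∃ m ∈ T y0 ∩ T z, T x ∩ (T y0 ∩ T z) = {m} := by
    filter_upwards [C.step hτ P hy' hyy univ_mem] with x hx h1 h2
    obtain ⟨-, -, -, -, m, hm, h3, -⟩ := hx h1 h2
    exact ⟨m, hm, h3⟩
  have s2 : ∀ᶠ x in 𝓝 z, dist x (z + y0 - y') = 1 → dist x y0 < 1 →
      ∃ m ∈ T y0 ∩ T z, T x ∩ (T y0 ∩ T z) = {m} := by
    filter_upwards [C.step hτ P a3 a4 univ_mem] with x hx h1 h2
    obtain ⟨-, -, -, -, m, hm, h3, -⟩ := hx h1 h2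
    exact ⟨m, hm, h3⟩
  obtain ⟨m, hm, hm1⟩ := C.mono hy0 hy' hyy hP s1
  obtain ⟨m', hm', hm2⟩ := C.mono hy0 a3 a4 hP s2
  have hmm : m = m' := by
    obtain ⟨x, ⟨h1, h2⟩, h3, h4⟩ := ((freq_branch hy0 hy' hyy).and_eventually
      ((C.step hτ P hy' hyy hm2).and hm1)).exists
    obtain ⟨x2, hx2, h5, h6, i, -, h7, h8⟩ := h3 h1 h2
    have h9 := h4 h1 h2
    have h10 := hx2 h5 h6
    rw [h7] at h9
    rw [h8] at h10
    rw [← Set.singleton_eq_singleton_iff, ← h9, h10]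
  refine ⟨m, hm, ?_⟩
  filter_upwards [hm1, hm2] with x h1 h2 h3 h4
  rcases h3 with h3 | h3
  · exact h1 h3 h4
  · rw [hmm]; exact h2 h3 h4

/-- neighbouring inner colours are different -/
theorem inner_ne (C : Ctx U T z e f) {τ : ℝ} {y0 y' : ℂ}
    (P : PurP T z τ e f y0) (hy' : dist y' z = 1) (hyy : dist y0 y' = 1) {Q : Set (Fin k)}
    (hQ0 : Q ⊆ T y0) {m m' : Fin k} (hm : m ∈ Q) (hmz : m ∈ T z)
    (h1 : ∀ᶠ x in 𝓝 z, dist x y' = 1 → dist x y0 < 1 → T x ∩ Q = {m})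
    (h2 : ∀ᶠ x in 𝓝 z, dist x y' = 1 → dist x (z + y' - y0) < 1 → T x ∩ Q = {m'}) :
    m' ≠ m := by
  rintro rfl
  have hy0 := P.dist
  have hzy' : dist z y' = 1 := by rw [dist_comm]; exact hy'
  have hzy0 : dist z y0 = 1 := by rw [dist_comm]; exact hy0
  have hJ : ∀ᶠ x in 𝓝[sphere y' 1] z, m' ∈ Pal U x := by
    filter_upwards [mem_nhdsWithin_of_mem_nhds h1, mem_nhdsWithin_of_mem_nhds h2,
      mem_nhdsWithin_of_mem_nhds (ball_mem_nhds z one_pos), self_mem_nhdsWithin]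
      with x h3 h4 h5 h6
    by_cases hxz : x = z
    · rw [hxz]; exact C.irr.sub z hmz
    · have h7 : m' ∈ T x ∩ Q := by
        rcases G4 hy0 hy' hyy h6 hxz h5 with h8 | h8
        · rw [h3 h6 h8]; rfl
        · rw [h4 h6 h8]; rfl
      exact C.irr.sub x h7.1
  rcases C.irr.mx.partner_line hzy' hJ hzy0 (C.irr.sub y0 (hQ0 hm)) with h3 | h3
  · rw [h3] at hyy; simp at hyy
  · exact (ne_of_tri (a := z) (b := y0) (c := y') hzy0 hzy' hyy).2 h3

/-- **Contradiction.** -/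
theorem false_of_pur (C : Ctx U T z e f) {τ : ℝ} (hτ : τ = 1 ∨ τ = -1) {y0 : ℂ}
    (P : PurP T z τ e f y0) : False := by
  have hy0 := P.dist
  have K := P.both
  obtain ⟨y1, hy1, h01⟩ := exists_nb hy0
  obtain ⟨a1, a2, a3, a4, a5, a6, a7, a8, a9⟩ := hexa hy0 hy1 h01
  have P1 := C.purP_next P hy1 h01
  set y2 := z + y1 - y0 with hy2
  set y5 := z + y0 - y1 with hy5
  set y4 := 2 * z - y1 with hy4
  set y3 := 2 * z - y0 with hy3
  have P2 := C.swap.purP_next P1 a1 a2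
  have P5 := C.purP_next P a3 a4
  have P4 := C.swap.purP_next P5 a5 a6
  have h21 : dist y2 y1 = 1 := by rw [dist_comm]; exact a2
  have h45 : dist y4 y5 = 1 := by rw [dist_comm]; exact a6
  -- the palettes of the even points
  have q2 : T y2 ∩ T z = T y0 ∩ T z := by
    ext m
    constructor
    · rintro ⟨h1, h2⟩
      refine ⟨?_, h2⟩
      have := (C.alt hy1 a1 a2 P1.both.symm h2).1 h1
      rw [C.alt hy0 hy1 h01 K h2, not_not] at this
      exact this
    · rintro ⟨h1, h2⟩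
      refine ⟨?_, h2⟩
      rw [C.alt hy1 a1 a2 P1.both.symm h2, C.alt hy0 hy1 h01 K h2, not_not]
      exact h1
  have q4 : T y4 ∩ T z = T y0 ∩ T z := by
    ext m
    constructor
    · rintro ⟨h1, h2⟩
      refine ⟨?_, h2⟩
      have := (C.alt a3 a5 a6 P5.both.symm h2).1 h1
      rw [C.alt hy0 a3 a4 K h2, not_not] at this
      exact this
    · rintro ⟨h1, h2⟩
      refine ⟨?_, h2⟩
      rw [C.alt a3 a5 a6 P5.both.symm h2, C.alt hy0 a3 a4 K h2, not_not]
      exact h1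
  obtain ⟨m0, hm0, i0⟩ := C.inner hτ P hy1 h01
  obtain ⟨m2, hm2, i2⟩ := C.inner hτ P2 hy1 h21
  obtain ⟨m4, hm4, i4⟩ := C.inner hτ P4 a3 h45
  rw [q2] at i2 hm2
  rw [q4] at i4 hm4
  have e0 : z + y0 - y1 = y5 := hy5.symm
  have e2 : z + y2 - y1 = y3 := by rw [hy2, hy3]; ring
  have e4 : z + y4 - y5 = y3 := by rw [hy4, hy5, hy3]; ring
  rw [← hy5] at i0
  rw [e2] at i2
  rw [e4] at i4
  set Q := T y0 ∩ T z with hQ
  have c1 : z + y1 - y0 = y2 := hy2.symm
  have c3 : z + y3 - y2 = y4 := by rw [hy2, hy3, hy4]; ring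
  have c5 : z + y5 - y4 = y0 := by rw [hy5, hy4]; ring
  have n02 : m2 ≠ m0 := C.inner_ne P hy1 h01 (Q := Q) inter_subset_left hm0 hm0.2
    (i0.mono fun x hx h1 h2 => hx (Or.inl h1) h2)
    (by rw [c1]; exact i2.mono fun x hx h1 h2 => hx (Or.inl h1) h2)
  have n24 : m4 ≠ m2 := C.inner_ne P2 a7 a8 (Q := Q) (by rw [← q2]; exact inter_subset_left)
    hm2 hm2.2 (i2.mono fun x hx h1 h2 => hx (Or.inr h1) h2)
    (by rw [c3]; exact i4.mono fun x hx h1 h2 => hx (Or.inr h1) h2)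
  have n40 : m0 ≠ m4 := C.inner_ne P4 a3 h45 (Q := Q) (by rw [← q4]; exact inter_subset_left)
    hm4 hm4.2 (i4.mono fun x hx h1 h2 => hx (Or.inl h1) h2)
    (by rw [c5]; exact i0.mono fun x hx h1 h2 => hx (Or.inr h1) h2)
  have hc := C.card_inter hy0 K
  have h3 : ({m0, m2, m4} : Set (Fin k)) ⊆ Q := by
    rintro m (rfl | rfl | rfl)
    · exact hm0
    · exact hm2
    · exact hm4
  have h4 := Set.ncard_le_ncard h3 (Set.toFinite _)
  rw [hc, Set.ncard_insert_of_notMem (by simp [n02.symm, n40]), Set.ncard_pair n24.symm] at h4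
  omega

/-- some point of the circle has both letters -/
theorem exists_both (C : Ctx U T z e f) : ∃ y, dist y z = 1 ∧ e ∈ T y ∧ f ∈ T y := by
  by_contra hcon
  push Not at hcon
  -- the two letters are separated on the circle
  have hcont : Continuous fun t : ℝ => z + cis t := continuous_const.add continuous_cis
  have hcl : ∀ i, IsClosed {t : ℝ | i ∈ T (z + cis t)} := fun i => (C.irr.closed i).preimage hcont
  have hside : (∀ t : ℝ, e ∈ T (z + cis t)) ∨ ∀ t : ℝ, f ∈ T (z + cis t) := by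
    by_contra h1
    push Not at h1
    obtain ⟨⟨t1, h1⟩, ⟨t2, h2⟩⟩ := h1
    have h3 := isPreconnected_closed_iff.1 (isPreconnected_univ (α := ℝ)) _ _ (hcl e) (hcl f)
      (fun t _ => C.hM _ (dist_add_cis z t))
      ⟨t2, mem_univ _, (C.hM _ (dist_add_cis z t2)).resolve_right h2⟩
      ⟨t1, mem_univ _, (C.hM _ (dist_add_cis z t1)).resolve_left h1⟩
    obtain ⟨t, -, ht1, ht2⟩ := h3
    exact hcon _ (dist_add_cis z t) ht1 ht2
  have hno : ∀ i : Fin k, (∀ t : ℝ, i ∈ T (z + cis t)) → False := by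
    intro i hi
    have h1 : dist (z + cis 0) z = 1 := dist_add_cis z 0
    have hJ : ∀ᶠ x in 𝓝[sphere z 1] (z + cis 0), i ∈ Pal U x := by
      filter_upwards [self_mem_nhdsWithin] with x hx
      obtain ⟨t, ht⟩ := exists_cis (u := x - z) (by rw [← dist_eq_norm]; exact hx)
      have : x = z + cis t := by rw [← ht]; ring
      rw [this]
      exact C.irr.sub _ (hi t)
    have h2 : dist (z + cis 0) (z + cis (0 + Real.pi / 3)) = 1 := dist_third z 0 (Or.inl rfl)
    have h3 : dist (z + cis (0 + Real.pi / 3)) z = 1 := dist_add_cis z _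
    rcases C.irr.mx.partner_line h1 hJ h2 (C.irr.sub _ (hi _)) with h4 | h4
    · rw [h4] at h3; simp at h3
    · exact (ne_of_tri (a := z + cis 0) (b := z + cis (0 + Real.pi / 3)) (c := z) h2 h1 h3).2 h4
  rcases hside with h1 | h1
  · exact hno e h1
  · exact hno f h1

end Ctx

/-- there is no such centre -/
theorem Ctx.false {z : ℂ} {e f : Fin k} (C : Ctx U T z e f) : False := by
  obtain ⟨y, hy, he, hf⟩ := C.exists_both
  obtain ⟨t, ht⟩ := exists_cis (u := y - z) (by rw [← dist_eq_norm]; exact hy)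
  have hyt : y = z + cis t := by rw [← ht]; ring
  rw [hyt] at he hf
  obtain ⟨τ, α, hτ, P⟩ := C.exists_pur ⟨he, hf⟩
  exact C.swap.false_of_pur hτ (y0 := z + cis α) ⟨α, rfl, P⟩

end Vale.Agent.P032.Six.H825

namespace Vale.Agent.P032.Six

/-- **(XM)** a point with four colours, all palettes on its unit circle of size at most four: some
palette on the unit circle is inside. -/
theorem Irr.exists_inside {U : Fin 6 → Set ℂ} {T : ℂ → Set (Fin 6)} (h : Irr U T) {z : ℂ}
    (hz : (T z).ncard = 4) (h4 : ∀ y, dist y z = 1 → (T y).ncard ≤ 4) :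
    ∃ y, dist y z = 1 ∧ T y ⊆ T z := by
  by_contra hcon
  push Not at hcon
  have hc : ((T z)ᶜ).ncard = 2 := by
    have := Set.ncard_add_ncard_compl (T z)
    rw [hz, Nat.card_eq_fintype_card, Fintype.card_fin] at this
    omega
  obtain ⟨e, f, hef, hT⟩ := Set.ncard_eq_two.1 hc
  have hmem : ∀ i, i ∉ T z ↔ (i = e ∨ i = f) := by
    intro i
    have : i ∈ (T z)ᶜ ↔ i ∈ ({e, f} : Set (Fin 6)) := by rw [hT]
    simpa using this
  refine H825.Ctx.false (U := U) (T := T) (z := z) (e := e) (f := f)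
    ⟨h, hef, (hmem e).2 (Or.inl rfl), (hmem f).2 (Or.inr rfl), fun i => ?_, hz, h4, fun y hy => ?_⟩
  · by_cases hi : i ∈ T z
    · exact Or.inl hi
    · exact Or.inr ((hmem i).1 hi)
  · obtain ⟨i, hi, hi'⟩ := Set.not_subset.1 (hcon y hy)
    rcases (hmem i).1 hi' with rfl | rfl
    · exact Or.inl hi
    · exact Or.inr hi

end Vale.Agent.P032.Six
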