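import Vale.Agent.P032.S5.H825.Base

/-!
# P032: a centre whose unit circle carries one of two colours everywhere: the palettes alternate
-/

open Set Filter Topology Metric

noncomputable section

namespace Vale.Agent.P032.Six.H825

open Vale.Agent.P032.Six

variable {k : ℕ} {U : Fin k → Set ℂ} {T : ℂ → Set (Fin k)}

/-- the setting: `T z` misses exactly `e`, `f`; every point of `S(z)` has `e` or `f` -/
structure Ctx (U : Fin k → Set ℂ) (T : ℂ → Set (Fin k)) (z : ℂ) (e f : Fin k) : Prop where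
  irr : Irr U T
  hef : e ≠ f
  ez : e ∉ T z
  fz : f ∉ T z
  cov : ∀ i, i ∈ T z ∨ i = e ∨ i = f
  four : (T z).ncard = 4
  le4 : ∀ y, dist y z = 1 → (T y).ncard ≤ 4
  hM : ∀ y, dist y z = 1 → e ∈ T y ∨ f ∈ T y

namespace Ctx

variable {z : ℂ} {e f : Fin k}

theorem swap (C : Ctx U T z e f) : Ctx U T z f e where
  irr := C.irr
  hef := C.hef.symm
  ez := C.fz
  fz := C.ez
  cov i := by rcases C.cov i with h | h | h <;> tauto
  four := C.four
  le4 := C.le4
  hM y hy := (C.hM y hy).symm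

/-- a point of `S(z)` without `e` -/
theorem no_e (C : Ctx U T z e f) {q w : ℂ} (hq : dist q z = 1) (heq : e ∉ T q)
    (hqw : dist q w = 1) (h1 : w ≠ z) (h2 : w + z ≠ 2 * q) : f ∉ Pal U w := by
  intro hf
  have hJ : ∀ᶠ x in 𝓝[sphere z 1] q, f ∈ Pal U x := by
    filter_upwards [mem_nhdsWithin_of_mem_nhds (C.irr.nhd q), self_mem_nhdsWithin] with x hx hxz
    rcases C.hM x hxz with h3 | h3
    · exact absurd (hx h3) heq
    · exact C.irr.sub x h3
  rcases C.irr.mx.partner_line hq hJ hqw hf with h3 | h3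
  · exact h1 h3
  · exact h2 h3

/-- three points at mutual distance one are not collinear -/
theorem ne_of_tri {a b c : ℂ} (hab : dist a b = 1) (hac : dist a c = 1) (hbc : dist b c = 1) :
    b ≠ a ∧ b + c ≠ 2 * a := by
  refine ⟨?_, ?_⟩
  · rintro rfl; simp at hab
  · intro h
    have h1 : b - c = 2 * (b - a) := by linear_combination -h
    rw [dist_eq_norm] at hbc hab
    rw [h1, norm_mul] at hbc
    have h2 : ‖b - a‖ = 1 := by rw [← norm_neg, neg_sub]; exact hab
    rw [h2] at hbc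
    norm_num at hbc

/-- the sixty degree rule -/
theorem rot (C : Ctx U T z e f) {y y' : ℂ} (hy : dist y z = 1) (hy' : dist y' z = 1)
    (hyy : dist y y' = 1) (he : e ∉ T y) : f ∉ Pal U y' := by
  have hzy' : z ≠ y' := by rintro rfl; simp at hy'
  refine C.no_e hy he hyy hzy'.symm ?_
  have := (ne_of_tri (a := y) (b := y') (c := z) hyy hy hy').2
  exact this

/-- both letters are invariant -/
theorem both (C : Ctx U T z e f) {y y' : ℂ} (hy : dist y z = 1) (hy' : dist y' z = 1)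
    (hyy : dist y y' = 1) (h : e ∈ T y ∧ f ∈ T y) : e ∈ T y' ∧ f ∈ T y' := by
  have hyy' : dist y' y = 1 := by rw [dist_comm]; exact hyy
  refine ⟨?_, ?_⟩
  · by_contra hcon
    exact C.rot hy' hy hyy' hcon (C.irr.sub y h.2)
  · by_contra hcon
    exact C.swap.rot hy' hy hyy' hcon (C.irr.sub y h.1)

/-- the third corner -/
theorem third {z y y' : ℂ} (hy : dist y z = 1) (hy' : dist y' z = 1) (hyy : dist y y' = 1) :
    dist (z + y - y') z = 1 ∧ dist (z + y - y') y = 1 ∧ z + y - y' ≠ y' ∧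
      z + y - y' + y' ≠ 2 * y := by
  refine ⟨?_, ?_, ?_, ?_⟩
  · rw [dist_eq_norm] at hyy ⊢
    rw [← hyy]; congr 1; ring
  · rw [dist_eq_norm] at hy' ⊢
    rw [← hy', ← norm_neg]; congr 1; ring
  · intro h
    exact (ne_of_tri (a := y') (b := y) (c := z) (by rw [dist_comm]; exact hyy) hy' hy).2
      (by linear_combination h)
  · intro h
    have : z = y := by linear_combination h
    rw [this] at hy; simp at hy

/-- near `y` no point of `S(y')` has its palette in `{e, f}` -/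
theorem no_ef (C : Ctx U T z e f) {y y' : ℂ} (hy : dist y z = 1) (hy' : dist y' z = 1)
    (hyy : dist y y' = 1) (h' : e ∈ T y' ∧ f ∈ T y') :
    ∀ᶠ w in 𝓝 y, dist w y' = 1 → ¬ T w ⊆ {e, f} := by
  obtain ⟨t1, t2, t3, t4⟩ := third hy hy' hyy
  set y2 := z + y - y' with hy2
  have hzy : z ≠ y := by rintro rfl; simp at hy
  -- neighbourhoods
  have hVW : ∀ᶠ p : ℂ × ℂ in 𝓝 y2 ×ˢ 𝓝 y, p.1 ≠ y' ∧ p.1 + y' ≠ 2 * p.2 := by
    have h1 : Tendsto (fun p : ℂ × ℂ => p.1) (𝓝 y2 ×ˢ 𝓝 y) (𝓝 y2) := tendsto_fst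
    have h2 : Tendsto (fun p : ℂ × ℂ => p.1 + y' - 2 * p.2) (𝓝 y2 ×ˢ 𝓝 y) (𝓝 (y2 + y' - 2 * y)) :=
      (tendsto_fst.add_const y').sub (tendsto_snd.const_mul 2)
    have h3 : ∀ᶠ p : ℂ × ℂ in 𝓝 y2 ×ˢ 𝓝 y, p.1 ≠ y' := h1.eventually (isOpen_ne.mem_nhds t3)
    have h4 : ∀ᶠ p : ℂ × ℂ in 𝓝 y2 ×ˢ 𝓝 y, p.1 + y' - 2 * p.2 ≠ 0 :=
      h2.eventually (isOpen_ne.mem_nhds (sub_ne_zero.2 t4))
    filter_upwards [h3, h4] with p h5 h6
    exact ⟨h5, fun h7 => h6 (by rw [h7]; ring)⟩
  obtain ⟨V, hV, W, hW, hVW⟩ := Filter.eventually_prod_iff.1 hVW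
  have hcross := cross_nhds (c := z) (q₀ := y) (p := y2) t1 t2 hzy
    (by
      intro h
      have h5 := third hy hy' hyy
      -- `y2` is off the line `z y`
      have h6 : dist z y = 1 := by rw [dist_comm]; exact hy
      exact (ne_of_tri (a := y2) (b := z) (c := y) t1 t2 h6).2 h) hV
  filter_upwards [hcross, hW] with w hw hwW hwy' hsub
  obtain ⟨q, hqV, hqz, hqw⟩ := hw
  obtain ⟨hq1, hq2⟩ := hVW hqV hwW
  -- the arc at `w`
  have hfull : ∀ i j : Fin k, (i = e ∧ j = f) ∨ (i = f ∧ j = e) →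
      ∀ᶠ x in 𝓝[sphere y' 1] w, i ∈ Pal U x := by
    intro i j hij
    filter_upwards [mem_nhdsWithin_of_mem_nhds (C.irr.nhd w), self_mem_nhdsWithin] with x hx hxy
    by_contra hcon
    have h1 : T x ⊆ {j} := by
      intro m hm
      have hmi : m ≠ i := by rintro rfl; exact hcon (C.irr.sub x hm)
      rcases hsub (hx hm) with h2 | h2
      · rcases hij with ⟨rfl, rfl⟩ | ⟨rfl, rfl⟩
        · exact absurd h2 hmi
        · exact h2
      · have h2 : m = f := h2
        rcases hij with ⟨rfl, rfl⟩ | ⟨rfl, rfl⟩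
        · exact h2
        · exact absurd h2 hmi
    have h2 := C.irr.mem_of_single h1
    refine C.irr.mx.notMem' h2 hxy ?_
    rcases hij with ⟨rfl, rfl⟩ | ⟨rfl, rfl⟩
    · exact C.irr.sub y' h'.2
    · exact C.irr.sub y' h'.1
  have hwq : dist w q = 1 := by rw [dist_comm]; exact hqw
  have key : ∀ i : Fin k, (∀ᶠ x in 𝓝[sphere y' 1] w, i ∈ Pal U x) → i ∉ T q := by
    intro i hi hiq
    rcases C.irr.mx.partner_line hwy' hi hwq (C.irr.sub q hiq) with h1 | h1
    · exact hq1 h1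
    · exact hq2 h1
  rcases C.hM q hqz with h1 | h1
  · exact key e (hfull e f (Or.inl ⟨rfl, rfl⟩)) h1
  · exact key f (hfull f e (Or.inr ⟨rfl, rfl⟩)) h1

/-- a neighbour at sixty degrees -/
theorem exists_nb {z y : ℂ} (hy : dist y z = 1) : ∃ y', dist y' z = 1 ∧ dist y y' = 1 := by
  obtain ⟨t, ht⟩ := exists_cis (u := y - z) (by rw [← dist_eq_norm]; exact hy)
  refine ⟨z + cis (t + Real.pi / 3), dist_add_cis z _, ?_⟩
  have : y = z + cis t := by rw [← ht]; ring
  rw [this]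
  exact dist_cis_third z _ _ (Or.inr (by ring))

/-- at a point with both letters there are two more colours -/
theorem not_sub3 (C : Ctx U T z e f) {y : ℂ} (hy : dist y z = 1) (h : e ∈ T y ∧ f ∈ T y)
    {x : Fin k} (hx : x ∈ T z) : ¬ T y ⊆ {e, f, x} := by
  intro hsub
  obtain ⟨y', hy', hyy⟩ := exists_nb hy
  have h' := C.both hy hy' hyy h
  have hJ : ∀ᶠ w in 𝓝[sphere y' 1] y, x ∈ Pal U w := by
    filter_upwards [mem_nhdsWithin_of_mem_nhds (C.no_ef hy hy' hyy h'),
      mem_nhdsWithin_of_mem_nhds (C.irr.nhd y), self_mem_nhdsWithin] with w h1 h2 h3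
    by_contra hcon
    refine h1 h3 fun m hm => ?_
    rcases hsub (h2 hm) with h4 | h4 | h4
    · exact Or.inl h4
    · exact Or.inr h4
    · exact absurd (h4 ▸ C.irr.sub w hm) hcon
  have hzy' : dist z y' = 1 := by rw [dist_comm]; exact hy'
  rcases C.irr.mx.partner_line (v := z) hyy hJ hy (C.irr.sub z hx) with h1 | h1
  · rw [h1] at hzy'; simp at hzy'
  · exact (ne_of_tri (a := y) (b := z) (c := y') hy hyy hzy').2 h1

/-- the palette at a point with both letters -/
theorem exists_pair (C : Ctx U T z e f) {y : ℂ} (hy : dist y z = 1) (h : e ∈ T y ∧ f ∈ T y)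
    {a : Fin k} (ha : a ∈ T y) (haz : a ∈ T z) :
    ∃ b, b ≠ a ∧ b ∈ T z ∧ T y = {e, f, a, b} := by
  obtain ⟨b, hb, hb'⟩ := Set.not_subset.1 (C.not_sub3 hy h haz)
  simp only [mem_insert_iff, mem_singleton_iff, not_or] at hb'
  obtain ⟨hbe, hbf, hba⟩ := hb'
  have hbz : b ∈ T z := by
    rcases C.cov b with h1 | h1 | h1
    · exact h1
    · exact absurd h1 hbe
    · exact absurd h1 hbf
  refine ⟨b, hba, hbz, ?_⟩
  have hae : a ≠ e := by rintro rfl; exact C.ez haz
  have haf : a ≠ f := by rintro rfl; exact C.fz haz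
  symm
  refine Set.eq_of_subset_of_ncard_le ?_ ?_ (Set.toFinite _)
  · rintro m (rfl | rfl | rfl | rfl)
    · exact h.1
    · exact h.2
    · exact ha
    · exact hb
  · have h4 := C.le4 y hy
    have : ({e, f, a, b} : Set (Fin k)).ncard = 4 := by
      rw [Set.ncard_insert_of_notMem (by simp [C.hef, hae.symm, Ne.symm hbe]),
        Set.ncard_insert_of_notMem (by simp [haf.symm, Ne.symm hbf]),
        Set.ncard_pair (Ne.symm hba)]
    omega

theorem card4 (C : Ctx U T z e f) {y : ℂ} (hy : dist y z = 1) (h : e ∈ T y ∧ f ∈ T y) :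
    (T y).ncard = 4 := by
  obtain ⟨x, hx⟩ : (T z).Nonempty := C.irr.ne z
  obtain ⟨a, ha, ha'⟩ := Set.not_subset.1 (C.not_sub3 hy h hx)
  simp only [mem_insert_iff, mem_singleton_iff, not_or] at ha'
  have haz : a ∈ T z := by
    rcases C.cov a with h1 | h1 | h1
    · exact h1
    · exact absurd h1 ha'.1
    · exact absurd h1 ha'.2.1
  obtain ⟨b, hba, hbz, hT⟩ := C.exists_pair hy h ha haz
  have hbe : b ≠ e := by rintro rfl; exact C.ez hbz
  have hbf : b ≠ f := by rintro rfl; exact C.fz hbz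
  rw [hT, Set.ncard_insert_of_notMem (by simp [C.hef, Ne.symm ha'.1, Ne.symm hbe]),
        Set.ncard_insert_of_notMem (by simp [Ne.symm ha'.2.1, Ne.symm hbf]),
        Set.ncard_pair (Ne.symm hba)]

/-- a common colour of two neighbours is carried by an exact pair -/
theorem share (C : Ctx U T z e f) {y y' : ℂ} (hy : dist y z = 1) (hy' : dist y' z = 1)
    (hyy : dist y y' = 1) (h : e ∈ T y ∧ f ∈ T y) {a : Fin k} (ha : a ∈ T y) (ha' : a ∈ T y')
    (haz : a ∈ T z) : ∃ᶠ w in 𝓝 y, dist w y' = 1 ∧ (T w = {e, a} ∨ T w = {f, a}) := by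
  have h' := C.both hy hy' hyy h
  obtain ⟨b, hba, hbz, hT⟩ := C.exists_pair hy h ha haz
  have hzy' : dist z y' = 1 := by rw [dist_comm]; exact hy'
  have hae : a ≠ e := by rintro rfl; exact C.ez haz
  have haf : a ≠ f := by rintro rfl; exact C.fz haz
  rw [Filter.frequently_iff]
  intro V hV
  -- a point without `b`
  obtain ⟨w, hwV, hwT, hwy', hwn, hwb⟩ : ∃ w ∈ interior (V ∩ {w | dist w y' = 1 → ¬ T w ⊆ {e, f}}),
      T w ⊆ T y ∧ dist w y' = 1 ∧ (dist w y' = 1 → ¬ T w ⊆ {e, f}) ∧ b ∉ T w := by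
    by_contra hcon
    push Not at hcon
    have hV' : V ∩ {w | dist w y' = 1 → ¬ T w ⊆ {e, f}} ∈ 𝓝 y :=
      inter_mem hV (C.no_ef hy hy' hyy h')
    have hJ : ∀ᶠ w in 𝓝[sphere y' 1] y, b ∈ Pal U w := by
      filter_upwards [mem_nhdsWithin_of_mem_nhds (interior_mem_nhds.2 hV'),
        mem_nhdsWithin_of_mem_nhds (C.irr.nhd y), self_mem_nhdsWithin] with w h1 h2 h3
      exact C.irr.sub w (hcon w h1 h2 h3 ((interior_subset h1).2))
    rcases C.irr.mx.partner_line (v := z) hyy hJ hy (C.irr.sub z hbz) with h1 | h1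
    · rw [h1] at hzy'; simp at hzy'
    · exact (ne_of_tri (a := y) (b := z) (c := y') hy hyy hzy').2 h1
  have hwsub : T w ⊆ {e, f, a} := by
    intro m hm
    have := hwT hm
    rw [hT] at this
    rcases this with h1 | h1 | h1 | h1
    · exact Or.inl h1
    · exact Or.inr (Or.inl h1)
    · exact Or.inr (Or.inr h1)
    · exact absurd (h1 ▸ hm) hwb
  have hsub' : T w ⊆ T y' := by
    intro m hm
    rcases hwsub hm with rfl | rfl | h1
    · exact h'.1
    · exact h'.2
    · rw [h1]; exact ha'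
  obtain ⟨q, hqV, hq1, -, hq3, hq4, hq5⟩ := C.irr.arc_of_sub hwy' hsub'
    (isOpen_interior.mem_nhds hwV)
  have hqV' := interior_subset hqV
  refine ⟨q, hqV'.1, hq1, ?_⟩
  have hqT : T q ⊆ {e, f, a} := hq3.trans hwsub
  have hqn := hqV'.2 hq1
  have hc4 := C.card4 hy' h'
  have hqc : (T q).ncard = 2 := by
    have := Set.ncard_sdiff (hq3.trans hsub') (Set.toFinite _)
    omega
  have haq : a ∈ T q := by
    by_contra hcon
    apply hqn
    intro m hm
    rcases hqT hm with h1 | h1 | h1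
    · exact Or.inl h1
    · exact Or.inr h1
    · exact absurd (h1 ▸ hm) hcon
  by_cases heq : e ∈ T q
  · left
    symm
    refine Set.eq_of_subset_of_ncard_le ?_ ?_ (Set.toFinite _)
    · rintro m (rfl | rfl)
      · exact heq
      · exact haq
    · rw [Set.ncard_pair hae.symm, hqc]
  · right
    have hfq : T q ⊆ {f, a} := by
      intro m hm
      rcases hqT hm with h1 | h1 | h1
      · exact absurd (h1 ▸ hm) heq
      · exact Or.inl h1
      · exact Or.inr h1
    refine Set.eq_of_subset_of_ncard_le hfq ?_ (Set.toFinite _)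
    rw [Set.ncard_pair haf.symm, hqc]

end Ctx

end Vale.Agent.P032.Six.H825
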