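import Vale.Agent.P032.S5.H394.Arc

/-!
# P032: a centre whose unit circle carries one of two colours everywhere, basic lemmas
-/

open Set Filter Topology Metric

noncomputable section

namespace Vale.Agent.P032.Six.H825

open Vale.Agent.P032.Six

variable {k : ℕ} {U : Fin k → Set ℂ} {T : ℂ → Set (Fin k)}

/-- real part products -/
def dt (a b : ℂ) : ℝ := a.re * b.re + a.im * b.im

theorem sq_dist_add (x a y : ℂ) : dist x y ^ 2 = dt (x - a) (x - a) - 2 * dt (x - a) (y - a)
    + dt (y - a) (y - a) := by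
  rw [Six.sq_dist]; simp [dt]; ring

theorem dt_self_nonneg (a : ℂ) : 0 ≤ dt a a := by unfold dt; nlinarith [sq_nonneg a.re, sq_nonneg a.im]

theorem dt_self_pos {a : ℂ} (h : a ≠ 0) : 0 < dt a a := by
  rcases (dt_self_nonneg a).lt_or_eq with h1 | h1
  · exact h1
  · exfalso; apply h
    unfold dt at h1
    have h2 : a.re = 0 := by nlinarith [sq_nonneg a.re, sq_nonneg a.im]
    have h3 : a.im = 0 := by nlinarith [sq_nonneg a.re, sq_nonneg a.im]
    exact Complex.ext h2 h3

theorem dt_norm (a : ℂ) : dt a a = ‖a‖ ^ 2 := by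
  rw [Complex.sq_norm, Complex.normSq_apply]; rfl

/-- the Gram identity in the plane -/
theorem gram (u v p q : ℂ) : (u.re * v.im - u.im * v.re) ^ 2 * dt p q =
    dt v v * (dt p u * dt q u) + dt u u * (dt p v * dt q v)
      - dt u v * (dt p u * dt q v + dt p v * dt q u) := by
  unfold dt; ring

theorem det_sq (u v : ℂ) : (u.re * v.im - u.im * v.re) ^ 2 = dt u u * dt v v - dt u v ^ 2 := by
  unfold dt; ring

/-- Gram identity for two unit vectors at sixty degrees -/
theorem gram60 {u v : ℂ} (hu : dt u u = 1) (hv : dt v v = 1) (huv : dt u v = 1 / 2) (p q : ℂ) :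
    3 / 4 * dt p q = dt p u * dt q u + dt p v * dt q v
      - 1 / 2 * (dt p u * dt q v + dt p v * dt q u) := by
  have h1 := gram u v p q
  rw [det_sq, hu, hv, huv] at h1
  linarith

/-- points of the circle `S(c)` near `p`, crossing with the circle about a point near `q₀` -/
theorem cross_nhds {c q₀ p : ℂ} (hp : dist p c = 1) (hpq : dist p q₀ = 1) (hne : c ≠ q₀)
    (hne2 : c + q₀ ≠ 2 * p) {V : Set ℂ} (hV : V ∈ 𝓝 p) :
    ∀ᶠ q in 𝓝 q₀, ∃ p' ∈ V, dist p' c = 1 ∧ dist p' q = 1 := by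
  obtain ⟨t0, ht0⟩ := exists_cis (u := p - c) (by rw [← dist_eq_norm]; exact hp)
  have hpc : c + cis t0 = p := by rw [← ht0]; ring
  have hcr : cr (cis t0) (c + cis t0 - q₀) ≠ 0 := by
    rw [hpc, ← ht0]; exact cr_ne hp hpq hne hne2
  have hc : Continuous fun t : ℝ => c + cis t := continuous_const.add continuous_cis
  have hN : ∀ᶠ t in 𝓝 t0, c + cis t ∈ V := by
    have h1 : V ∈ 𝓝 (c + cis t0) := by rw [hpc]; exact hV
    exact hc.continuousAt.eventually h1
  obtain ⟨η, hη, hη'⟩ := Metric.eventually_nhds_iff.1 hN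
  filter_upwards [crossing (c := c) (q₀ := q₀) (t0 := t0) (by rw [hpc]; exact hpq) hcr hη]
    with q hq
  obtain ⟨t, ht, ht1⟩ := hq
  exact ⟨c + cis t, hη' (by rw [Real.dist_eq]; exact ht), dist_add_cis c t, ht1⟩

/-- the geometry of the final step -/
theorem dist_gt {y0 y1 z q' q : ℂ} (h01 : dist y0 y1 = 1) (hz0 : dist z y0 = 1)
    (hz1 : dist z y1 = 1) (hq' : dist q' y1 = 1) (hq'5 : dist q' (z + y0 - y1) ≤ 1)
    (hq'ne : q' ≠ y0) (hq : dist q y0 = 1) (hq2 : 1 ≤ dist q (z + y1 - y0)) (hqne : q ≠ y1)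
    (hqs : dist q y1 < 1) : 1 < dist q' q := by
  set v := y0 - y1 with hv
  set u := z - y1 with hu
  set d' := q' - y0 with hd'
  set d := q - y1 with hd
  have sqd : ∀ a b : ℂ, dist a b ^ 2 = dt (a - b) (a - b) := fun a b => by
    rw [Six.sq_dist]; simp [dt]; ring
  have one_of : ∀ a b : ℂ, dist a b = 1 → dt (a - b) (a - b) = 1 := fun a b h => by
    rw [← sqd, h]; norm_num
  have e1 : dt v v = 1 := one_of _ _ h01
  have e2 : dt u u = 1 := one_of _ _ hz1
  have e3 : dt (u - v) (u - v) = 1 := by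
    have := one_of _ _ hz0
    have h2 : z - y0 = u - v := by rw [hu, hv]; ring
    rwa [h2] at this
  have e4 : dt u v = 1 / 2 := by
    have : dt (u - v) (u - v) = dt u u - 2 * dt u v + dt v v := by simp [dt]; ring
    linarith
  have f1 : 2 * dt d' v = - dt d' d' := by
    have := one_of _ _ hq'
    have h2 : q' - y1 = d' + v := by rw [hd', hv]; ring
    rw [h2] at this
    have h3 : dt (d' + v) (d' + v) = dt d' d' + 2 * dt d' v + dt v v := by simp [dt]; ring
    linarith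
  have f2 : dt d' d' ≤ 2 * dt d' u := by
    have h1 : dist q' (z + y0 - y1) ^ 2 ≤ 1 := by
      have := dist_nonneg (x := q') (y := z + y0 - y1); nlinarith
    rw [sqd] at h1
    have h2 : q' - (z + y0 - y1) = d' - u := by rw [hd', hu]; ring
    rw [h2] at h1
    have h3 : dt (d' - u) (d' - u) = dt d' d' - 2 * dt d' u + dt u u := by simp [dt]; ring
    linarith
  have f3 : 2 * dt d v = dt d d := by
    have := one_of _ _ hq
    have h2 : q - y0 = d - v := by rw [hd, hv]; ring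
    rw [h2] at this
    have h3 : dt (d - v) (d - v) = dt d d - 2 * dt d v + dt v v := by simp [dt]; ring
    linarith
  have f4 : dt d u ≤ dt d d := by
    have h1 : 1 ≤ dist q (z + y1 - y0) ^ 2 := by nlinarith
    rw [sqd] at h1
    have h2 : q - (z + y1 - y0) = d + v - u := by rw [hd, hv, hu]; ring
    rw [h2] at h1
    have h3 : dt (d + v - u) (d + v - u) = dt d d + dt (u - v) (u - v) + 2 * dt d v - 2 * dt d u := by
      simp [dt]; ring
    linarith
  have g1 := gram60 e2 e1 e4 d d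
  have g2 := gram60 e2 e1 e4 d d'
  have hDpos : 0 < dt d d := dt_self_pos (by rw [hd]; exact sub_ne_zero.2 hqne)
  have hD'pos : 0 < dt d' d' := dt_self_pos (by rw [hd']; exact sub_ne_zero.2 hq'ne)
  have hD1 : dt d d < 1 := by
    rw [hd, ← sqd]; have := dist_nonneg (x := q) (y := y1); nlinarith
  set X := dt d u with hX
  set X' := dt d' u with hX'
  set D := dt d d with hD
  set D' := dt d' d' with hD'
  have hdv : dt d v = D / 2 := by linarith
  have hdv' : dt d' v = - D' / 2 := by linarith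
  rw [hdv] at g1 g2
  rw [hdv'] at g2
  have hXneg : X < 0 := by
    by_contra hcon
    push Not at hcon
    nlinarith
  have hX'pos : 0 < X' := by linarith
  have hneg : dt d d' < 0 := by
    have p1 : X * X' < 0 := mul_neg_of_neg_of_pos hXneg hX'pos
    have p2 : 0 < D * D' := mul_pos hDpos hD'pos
    have p3 : X * D' < 0 := mul_neg_of_neg_of_pos hXneg hD'pos
    have p4 : 0 < D * X' := mul_pos hDpos hX'pos
    nlinarith
  have hfin : dist q' q ^ 2 = 1 - 2 * dt d d' := by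
    rw [sqd]
    have h2 : q' - q = d' + v - d := by rw [hd', hv, hd]; ring
    rw [h2]
    have h3 : dt (d' + v - d) (d' + v - d) = dt d' d' + dt v v + dt d d + 2 * dt d' v
      - 2 * dt d d' - 2 * dt d v := by simp [dt]; ring
    rw [h3, hdv, hdv', e1]; ring
  have := dist_nonneg (x := q') (y := q)
  nlinarith

/-- confinement, far form -/
theorem conf_far (h : Mx U) {c : ℝ → ℂ} (hc : Continuous c) {η : ℝ} (hη : 0 ≤ η) {m : Fin k}
    (hm : ∀ s ∈ Icc 0 η, m ∈ Pal U (c s)) {w0 : ℂ} (hfar : 1 < dist (c η) w0) :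
    ∀ᶠ w in 𝓝 w0, dist w (c 0) < 1 → m ∉ Pal U w := by
  filter_upwards [(continuous_const.dist continuous_id).continuousAt.eventually
    (Ioi_mem_nhds (show 1 < dist (c η) (id w0) from hfar))] with w hw hw1
  have hQ : IsPreconnected (c '' Icc 0 η) := isPreconnected_Icc.image _ hc.continuousOn
  refine h.wlemma (i := m) hQ ?_ (z := w) ⟨0, ⟨le_rfl, hη⟩, rfl⟩ ⟨η, ⟨hη, le_rfl⟩, rfl⟩
    (by rw [dist_comm]; exact hw1) hw
  rintro _ ⟨r, hr, rfl⟩
  exact hm r hr

/-- confinement, near form -/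
theorem conf_near (h : Mx U) {c : ℝ → ℂ} (hc : Continuous c) {η : ℝ} (hη : 0 ≤ η) {m : Fin k}
    (hm : ∀ s ∈ Icc 0 η, m ∈ Pal U (c s)) {w0 : ℂ} (hnear : dist (c η) w0 < 1) :
    ∀ᶠ w in 𝓝 w0, 1 < dist w (c 0) → m ∉ Pal U w := by
  filter_upwards [(continuous_const.dist continuous_id).continuousAt.eventually
    (Iio_mem_nhds (show dist (c η) (id w0) < 1 from hnear))] with w hw hw1
  have hQ : IsPreconnected (c '' Icc 0 η) := isPreconnected_Icc.image _ hc.continuousOn
  refine h.wlemma (i := m) hQ ?_ (z := w) ⟨η, ⟨hη, le_rfl⟩, rfl⟩ ⟨0, ⟨le_rfl, hη⟩, rfl⟩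
    hw (by rw [dist_comm]; exact hw1)
  rintro _ ⟨r, hr, rfl⟩
  exact hm r hr

/-- **The final contradiction** of the case of a common colour. -/
theorem fin_contra (h : Irr U T) {z y0 y1 : ℂ} {e f a : Fin k} (h01 : dist y0 y1 = 1)
    (hz0 : dist z y0 = 1) (hz1 : dist z y1 = 1)
    (hA1 : ∀ᶠ w in 𝓝 y0, dist w y1 < 1 → e ∉ Pal U w)
    (hA2 : ∀ᶠ w in 𝓝 y0, 1 < dist w (z + y0 - y1) → e ∉ Pal U w)
    (hB : ∀ᶠ w in 𝓝 y1, dist w (z + y1 - y0) < 1 → f ∉ Pal U w)
    (hf0 : ¬ T y0 ⊆ {e, a}) (he1 : ¬ T y1 ⊆ {f, a})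
    (x0 : ∃ᶠ w in 𝓝 y0, dist w y1 = 1 ∧ T w = {e, a})
    (x1 : ∃ᶠ w in 𝓝 y1, dist w y0 = 1 ∧ T w = {f, a}) : False := by
  obtain ⟨q', ⟨hq'1, hq'T⟩, hq'A1, hq'A2⟩ :=
    (x0.and_eventually ((eventually_eventually_nhds.2 hA1).and hA2)).exists
  have hq'e : e ∈ Pal U q' := h.sub q' (by rw [hq'T]; simp)
  have hq'5 : dist q' (z + y0 - y1) ≤ 1 := by
    by_contra hcon
    push Not at hcon
    exact hq'A2 hcon hq'e
  have hq'ne : q' ≠ y0 := by
    rintro rfl; exact hf0 hq'T.subset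
  -- near `q'` inside `D(y1)` everything is `a`
  have hin : ∀ᶠ w in 𝓝 q', dist w y1 < 1 → w ∈ U a := by
    filter_upwards [hq'A1, h.nhd q'] with w h1 h2 h3
    refine h.mem_of_single fun m hm => ?_
    have h4 := h2 hm
    rw [hq'T] at h4
    rcases h4 with rfl | h4
    · exact absurd (h.sub w hm) (h1 h3)
    · exact h4
  obtain ⟨r, hr, hball⟩ := Metric.eventually_nhds_iff.1 hin
  set ρ := min (r / 2) (1 / 2) with hρ
  have hρ0 : 0 < ρ := lt_min (by linarith) (by norm_num)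
  have hρr : ρ < r := lt_of_le_of_lt (min_le_left _ _) (by linarith)
  have hρ1 : ρ < 1 := lt_of_le_of_lt (min_le_right _ _) (by norm_num)
  have hnear0 : ∀ᶠ w in 𝓝 y1, dist w y1 < ρ := Metric.ball_mem_nhds y1 hρ0
  have hnear : ∀ᶠ w in 𝓝 y1, dist w y1 < ρ ∧ (dist w (z + y1 - y0) < 1 → f ∉ Pal U w) :=
    hnear0.and hB
  obtain ⟨q, ⟨hq0, hqT⟩, hqρ, hqB⟩ := (x1.and_eventually hnear).exists
  have hqf : f ∈ Pal U q := h.sub q (by rw [hqT]; simp)
  have hqa : a ∈ Pal U q := h.sub q (by rw [hqT]; simp)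
  have hq2 : 1 ≤ dist q (z + y1 - y0) := by
    by_contra hcon
    push Not at hcon
    exact hqB hcon hqf
  have hqne : q ≠ y1 := by
    rintro rfl; exact he1 hqT.subset
  have hgt : 1 < dist q' q := dist_gt h01 hz0 hz1 hq'1 hq'5 hq'ne hq0 hq2 hqne (by linarith)
  -- the segment
  have hcont : ContinuousOn (fun s : ℝ => dist (q' + s * (y1 - q')) q) (Icc 0 ρ) := by fun_prop
  have hnorm : ‖y1 - q'‖ = 1 := by rw [← dist_eq_norm, dist_comm]; exact hq'1
  have hlt : dist (q' + (ρ : ℝ) * (y1 - q')) q < 1 := by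
    have h1 : dist (q' + (ρ : ℝ) * (y1 - q')) y1 = 1 - ρ := by
      have : q' + (ρ : ℝ) * (y1 - q') - y1 = -((1 - ρ : ℝ) * (y1 - q')) := by push_cast; ring
      rw [dist_eq_norm, this, norm_neg, norm_mul, hnorm, mul_one, Complex.norm_real,
        Real.norm_of_nonneg (by linarith)]
    have h2 := dist_triangle (q' + (ρ : ℝ) * (y1 - q')) y1 q
    rw [h1, dist_comm y1 q] at h2
    linarith
  have hmem : (1 : ℝ) ∈ Icc (dist (q' + (ρ : ℝ) * (y1 - q')) q)
      (dist (q' + ((0 : ℝ) : ℂ) * (y1 - q')) q) := by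
    refine ⟨hlt.le, ?_⟩
    simp only [Complex.ofReal_zero, zero_mul, add_zero]
    exact hgt.le
  obtain ⟨s, hs, hs1⟩ := intermediate_value_Icc' hρ0.le hcont hmem
  have hs1 : dist (q' + (s : ℝ) * (y1 - q')) q = 1 := hs1
  have hs0 : 0 < s := by
    rcases hs.1.lt_or_eq with h1 | h1
    · exact h1
    · rw [← h1] at hs1
      simp only [Complex.ofReal_zero, zero_mul, add_zero] at hs1
      linarith
  have hsU : q' + (s : ℝ) * (y1 - q') ∈ U a := by
    refine hball ?_ ?_
    · have : q' + (s : ℝ) * (y1 - q') - q' = (s : ℝ) * (y1 - q') := by ring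
      rw [dist_eq_norm, this, norm_mul, hnorm, mul_one, Complex.norm_real,
        Real.norm_of_nonneg hs0.le]
      linarith [hs.2]
    · have : q' + (s : ℝ) * (y1 - q') - y1 = -((1 - s : ℝ) * (y1 - q')) := by push_cast; ring
      rw [dist_eq_norm, this, norm_neg, norm_mul, hnorm, mul_one, Complex.norm_real,
        Real.norm_of_nonneg (by linarith [hs.2])]
      linarith
  exact h.mx.notMem' hsU hs1 hqa

end Vale.Agent.P032.Six.H825
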