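import Vale.Agent.P032.S5.H825.Share

/-!
# P032: the alternating hexagon, regions without the two letters
-/

open Set Filter Topology Metric

noncomputable section

namespace Vale.Agent.P032.Six.H825

open Vale.Agent.P032.Six

variable {k : ℕ} {U : Fin k → Set ℂ} {T : ℂ → Set (Fin k)}

theorem sqd (a b : ℂ) : dist a b ^ 2 = dt (a - b) (a - b) := by
  rw [Six.sq_dist]; simp [dt]; ring

theorem dt_one {a b : ℂ} (h : dist a b = 1) : dt (a - b) (a - b) = 1 := by
  rw [← sqd, h]; norm_num

theorem cauchy (u v : ℂ) : dt u v ^ 2 ≤ dt u u * dt v v := by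
  have := det_sq u v
  nlinarith [sq_nonneg (u.re * v.im - u.im * v.re)]

theorem dt_add_left (a b c : ℂ) : dt (a + b) c = dt a c + dt b c := by simp [dt]; ring
theorem dt_comm (a b : ℂ) : dt a b = dt b a := by simp [dt]; ring

theorem lt_one_iff' {a b : ℂ} : dist a b < 1 ↔ dt (a - b) (a - b) < 1 := by
  rw [← sqd]
  have := dist_nonneg (x := a) (y := b)
  constructor <;> intro h <;> nlinarith

theorem one_lt_iff' {a b : ℂ} : 1 < dist a b ↔ 1 < dt (a - b) (a - b) := by
  rw [← sqd]
  have := dist_nonneg (x := a) (y := b)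
  constructor <;> intro h <;> nlinarith

/-- data of the two crossing lemmas -/
theorem cross_data {z y0 y5 x w : ℂ} (h0 : dist y0 z = 1) (h5 : dist y5 z = 1)
    (h05 : dist y0 y5 = 1) (hw5 : dist w y5 = 1) (hwx : dist w x = 1)
    (hxz : dist x z < 1 / 2) (hwy : dist w y0 < 1) :
    ∃ D X Z : ℝ, dt (w - z) (w - z) = 1 + (2 * X + D) ∧
      dt (x - y0) (x - y0) = 1 - (D + 2 * X - 2 * Z) ∧
      3 / 4 * D = X ^ 2 + D ^ 2 / 4 + X * D / 2 ∧ 0 ≤ D ∧ D < 1 ∧ Z ^ 2 ≤ D * (1 / 4) ∧
      dt (w - (z + y0 - y5)) (w - (z + y0 - y5)) = 1 + (2 * X + D) + D := by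
  set a := y0 - y5 with ha
  set b := y0 - z with hb
  set d := w - y0 with hd
  set x' := x - z with hx'
  have e1 : dt a a = 1 := dt_one h05
  have e2 : dt b b = 1 := dt_one h0
  have e3 : dt (b - a) (b - a) = 1 := by
    have := dt_one h5
    have h2 : y5 - z = b - a := by rw [ha, hb]; ring
    rwa [h2] at this
  have e4 : dt b a = 1 / 2 := by
    have : dt (b - a) (b - a) = dt b b - 2 * dt b a + dt a a := by simp [dt]; ring
    linarith
  have f1 : 2 * dt d a = - dt d d := by
    have := dt_one hw5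
    have h2 : w - y5 = d + a := by rw [hd, ha]; ring
    rw [h2] at this
    have h3 : dt (d + a) (d + a) = dt d d + 2 * dt d a + dt a a := by simp [dt]; ring
    linarith
  have f2 : dt d d + 2 * dt d b - 2 * dt d x' + dt (b - x') (b - x') = 1 := by
    have := dt_one hwx
    have h2 : w - x = d + (b - x') := by rw [hd, hb, hx']; ring
    rw [h2] at this
    have h3 : dt (d + (b - x')) (d + (b - x')) = dt d d + 2 * dt d b - 2 * dt d x'
      + dt (b - x') (b - x') := by simp [dt]; ring
    linarith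
  have g := gram60 e2 e1 e4 d d
  refine ⟨dt d d, dt d b, dt d x', ?_, ?_, ?_, dt_self_nonneg d, ?_, ?_, ?_⟩
  · have h2 : w - z = d + b := by rw [hd, hb]; ring
    rw [h2]
    have h3 : dt (d + b) (d + b) = dt d d + 2 * dt d b + dt b b := by simp [dt]; ring
    rw [h3, e2]; ring
  · have h2 : x - y0 = -(b - x') := by rw [hb, hx']; ring
    rw [h2]
    have h3 : dt (-(b - x')) (-(b - x')) = dt (b - x') (b - x') := by
      unfold dt; simp only [Complex.neg_re, Complex.neg_im]; ring
    rw [h3]; linarith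
  · have hda : dt d a = - dt d d / 2 := by linarith
    rw [hda] at g
    linarith
  · rw [hd, ← sqd]; have := dist_nonneg (x := w) (y := y0); nlinarith
  · have h1 := cauchy d x'
    have h2 : dt x' x' ≤ 1 / 4 := by
      rw [hx', ← sqd]; have := dist_nonneg (x := x) (y := z); nlinarith
    have h3 := dt_self_nonneg d
    nlinarith
  · have h2 : w - (z + y0 - y5) = d + b - a + (b - b) := by rw [hd, hb, ha]; ring
    have h2' : w - (z + y0 - y5) = d + (y5 - z) := by rw [hd]; ring
    have h4 : y5 - z = b - a := by rw [ha, hb]; ring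
    rw [h2', h4]
    have h3 : dt (d + (b - a)) (d + (b - a)) = dt d d + 2 * dt d b - 2 * dt d a
      + dt (b - a) (b - a) := by simp [dt]; ring
    rw [h3, e3]; linarith

theorem G1 {z y0 y5 x w : ℂ} (h0 : dist y0 z = 1) (h5 : dist y5 z = 1)
    (h05 : dist y0 y5 = 1) (hw5 : dist w y5 = 1) (hwx : dist w x = 1)
    (hxz : dist x z < 1 / 2) (hwy : dist w y0 < 1) (hx : dist x y0 < 1) :
    1 < dist w z ∧ 1 < dist w (z + y0 - y5) := by
  obtain ⟨D, X, Z, h1, h2, h3, h4, h4', h6, h7⟩ := cross_data h0 h5 h05 hw5 hwx hxz hwy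
  have hx2 := lt_one_iff'.1 hx
  rw [h2] at hx2
  have hpos : 0 < 2 * X + D := by
    by_contra hcon
    push Not at hcon
    obtain ⟨Y, hY⟩ : ∃ Y, X = - D / 2 - Y := ⟨-D / 2 - X, by ring⟩
    have hY0 : 0 ≤ Y := by linarith
    have hYZ : Y < -Z := by linarith
    have hY2 : Y ^ 2 < Z ^ 2 := by nlinarith
    have hDpos : 0 < D := by
      rcases h4.lt_or_eq with h8 | h8
      · exact h8
      · rw [← h8] at h6; nlinarith
    have hYs : Y ^ 2 < 1 / 4 := by nlinarith
    have hY1 : Y < 1 / 2 := by nlinarith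
    rw [hY] at h3
    nlinarith [mul_nonneg hDpos.le hY0]
  exact ⟨one_lt_iff'.2 (by rw [h1]; linarith), one_lt_iff'.2 (by rw [h7]; linarith)⟩

theorem G3 {z y0 y5 x w : ℂ} (h0 : dist y0 z = 1) (h5 : dist y5 z = 1)
    (h05 : dist y0 y5 = 1) (hw5 : dist w y5 = 1) (hwx : dist w x = 1)
    (hxz : dist x z < 1 / 2) (hwy : dist w y0 < 1) (hx : 1 < dist x y0) :
    dist w z < 1 := by
  obtain ⟨D, X, Z, h1, h2, h3, h4, h4', h6, -⟩ := cross_data h0 h5 h05 hw5 hwx hxz hwy
  have hx2 := one_lt_iff'.1 hx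
  rw [h2] at hx2
  have hneg : 2 * X + D < 0 := by
    by_contra hcon
    push Not at hcon
    obtain ⟨Y, hY⟩ : ∃ Y, X = - D / 2 + Y := ⟨D / 2 + X, by ring⟩
    have hY0 : 0 ≤ Y := by linarith
    have hYZ : Y < Z := by linarith
    have hY2 : Y ^ 2 < Z ^ 2 := by nlinarith
    have hDpos : 0 < D := by
      rcases h4.lt_or_eq with h8 | h8
      · exact h8
      · rw [← h8] at h6; nlinarith
    rw [hY] at h3
    nlinarith [mul_nonneg hDpos.le hY0]
  exact lt_one_iff'.2 (by rw [h1]; linarith)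

/-- near `z` a point of `S(y1)` is in one of the neighbouring discs -/
theorem G4 {z y0 y1 x : ℂ} (h0 : dist y0 z = 1) (h1 : dist y1 z = 1)
    (h01 : dist y0 y1 = 1) (hx1 : dist x y1 = 1) (hxz : x ≠ z) (hxz1 : dist x z < 1) :
    dist x y0 < 1 ∨ dist x (z + y1 - y0) < 1 := by
  by_contra hcon
  push Not at hcon
  obtain ⟨c1, c2⟩ := hcon
  set u := y0 - z with hu
  set v := y1 - z with hv
  set d := x - z with hd
  have e1 : dt u u = 1 := dt_one h0
  have e2 : dt v v = 1 := dt_one h1
  have e4 : dt u v = 1 / 2 := by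
    have := dt_one h01
    have h2 : y0 - y1 = u - v := by rw [hu, hv]; ring
    rw [h2] at this
    have h3 : dt (u - v) (u - v) = dt u u - 2 * dt u v + dt v v := by simp [dt]; ring
    linarith
  have f1 : 2 * dt d v = dt d d := by
    have := dt_one hx1
    have h2 : x - y1 = d - v := by rw [hd, hv]; ring
    rw [h2] at this
    have h3 : dt (d - v) (d - v) = dt d d - 2 * dt d v + dt v v := by simp [dt]; ring
    linarith
  have f2 : 2 * dt d u ≤ dt d d := by
    have h5 : 1 ≤ dt (x - y0) (x - y0) := by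
      rw [← sqd]; nlinarith
    have h2 : x - y0 = d - u := by rw [hd, hu]; ring
    rw [h2] at h5
    have h3 : dt (d - u) (d - u) = dt d d - 2 * dt d u + dt u u := by simp [dt]; ring
    linarith
  have f3 : 2 * dt d v - 2 * dt d u ≤ dt d d := by
    have h5 : 1 ≤ dt (x - (z + y1 - y0)) (x - (z + y1 - y0)) := by
      rw [← sqd]; nlinarith
    have h2 : x - (z + y1 - y0) = d - (v - u) := by rw [hd, hu, hv]; ring
    rw [h2] at h5
    have h3 : dt (d - (v - u)) (d - (v - u)) = dt d d - (2 * dt d v - 2 * dt d u)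
      + (dt u u - 2 * dt u v + dt v v) := by simp [dt]; ring
    rw [h3, e1, e2, e4] at h5
    linarith
  have g := gram60 e1 e2 e4 d d
  have hD : 0 < dt d d := dt_self_pos (sub_ne_zero.2 hxz)
  have hD1 : dt d d < 1 := lt_one_iff'.1 hxz1
  set A := dt d u with hA
  set D := dt d d with hDD
  have hdv : dt d v = D / 2 := by linarith
  rw [hdv] at g
  have hA0 : 0 ≤ A := by linarith
  nlinarith [mul_nonneg hA0 (show 0 ≤ D / 2 - A by linarith)]

/-- near `z` a point of `S(y)` is in one of the discs about the second neighbours -/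
theorem G2 {z y y' x : ℂ} (h0 : dist y z = 1) (h1 : dist y' z = 1)
    (h01 : dist y y' = 1) (hx1 : dist x y = 1) (hxz : x ≠ z) (hxz1 : dist x z < 1) :
    dist x (z + y' - y) < 1 ∨ dist x (2 * z - y') < 1 := by
  by_contra hcon
  push Not at hcon
  obtain ⟨c1, c2⟩ := hcon
  set u := y - z with hu
  set v := y' - z with hv
  set d := x - z with hd
  have e1 : dt u u = 1 := dt_one h0
  have e2 : dt v v = 1 := dt_one h1
  have e4 : dt u v = 1 / 2 := by
    have := dt_one h01
    have h2 : y - y' = u - v := by rw [hu, hv]; ring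
    rw [h2] at this
    have h3 : dt (u - v) (u - v) = dt u u - 2 * dt u v + dt v v := by simp [dt]; ring
    linarith
  have f1 : 2 * dt d u = dt d d := by
    have := dt_one hx1
    have h2 : x - y = d - u := by rw [hd, hu]; ring
    rw [h2] at this
    have h3 : dt (d - u) (d - u) = dt d d - 2 * dt d u + dt u u := by simp [dt]; ring
    linarith
  have f2 : 2 * dt d v - 2 * dt d u ≤ dt d d := by
    have h5 : 1 ≤ dt (x - (z + y' - y)) (x - (z + y' - y)) := by
      rw [← sqd]; nlinarith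
    have h2 : x - (z + y' - y) = d - (v - u) := by rw [hd, hu, hv]; ring
    rw [h2] at h5
    have h3 : dt (d - (v - u)) (d - (v - u)) = dt d d - (2 * dt d v - 2 * dt d u)
      + (dt u u - 2 * dt u v + dt v v) := by simp [dt]; ring
    rw [h3, e1, e2, e4] at h5
    linarith
  have f3 : - (2 * dt d v) ≤ dt d d := by
    have h5 : 1 ≤ dt (x - (2 * z - y')) (x - (2 * z - y')) := by
      rw [← sqd]; nlinarith
    have h2 : x - (2 * z - y') = d + v := by rw [hd, hv]; ring
    rw [h2] at h5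
    have h3 : dt (d + v) (d + v) = dt d d + 2 * dt d v + dt v v := by simp [dt]; ring
    linarith
  have g := gram60 e1 e2 e4 d d
  have hD : 0 < dt d d := dt_self_pos (sub_ne_zero.2 hxz)
  have hD1 : dt d d < 1 := lt_one_iff'.1 hxz1
  set B := dt d v with hB
  set D := dt d d with hDD
  have hdu : dt d u = D / 2 := by linarith
  rw [hdu] at g
  -- `B` between `-D/2` and `D`
  nlinarith [mul_nonneg (show 0 ≤ D - B by linarith) (show 0 ≤ B + D / 2 by linarith)]

/-- `y = z + cis α` has both letters, before it (orientation `τ`) there is an arc without `f`, and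
points without `e` accumulate after it -/
structure Pur (T : ℂ → Set (Fin k)) (z : ℂ) (τ : ℝ) (e f : Fin k) (α : ℝ) : Prop where
  K : e ∈ T (z + cis α) ∧ f ∈ T (z + cis α)
  arc : ∃ ε > 0, ∀ s, 0 < s → s < ε → f ∉ T (z + cis (α - τ * s))
  acc : ∀ δ > 0, ∃ s, 0 < s ∧ s < δ ∧ e ∉ T (z + cis (α + τ * s))

namespace Ctx

variable {z : ℂ} {e f : Fin k}

theorem pur_next (C : Ctx U T z e f) {τ α : ℝ} (P : Pur T z τ e f α) {ω : ℝ}
    (hω : ω = Real.pi / 3 ∨ ω = -(Real.pi / 3)) : Pur T z τ f e (α + ω) := by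
  have aux : ∀ β : ℝ, dist (z + cis β) (z + cis (β + ω)) = 1 := fun β => dist_third z β hω
  refine ⟨(C.both (dist_add_cis z _) (dist_add_cis z _) (aux α) P.K).symm, ?_, ?_⟩
  · obtain ⟨ε, hε, h⟩ := P.arc
    refine ⟨ε, hε, fun s h1 h2 h3 => ?_⟩
    have := C.swap.rot (dist_add_cis z _) (dist_add_cis z _) (aux (α - τ * s)) (h s h1 h2)
    rw [show α - τ * s + ω = α + ω - τ * s by ring] at this
    exact this (C.irr.sub _ h3)
  · intro δ hδ
    obtain ⟨s, h1, h2, h3⟩ := P.acc δ hδ
    refine ⟨s, h1, h2, fun h4 => ?_⟩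
    have := C.rot (dist_add_cis z _) (dist_add_cis z _) (aux (α + τ * s)) h3
    rw [show α + τ * s + ω = α + ω + τ * s by ring] at this
    exact this (C.irr.sub _ h4)

/-- **Region without the letters.** -/
theorem mo (C : Ctx U T z e f) {τ α : ℝ} (hτ : τ = 1 ∨ τ = -1) (P : Pur T z τ e f α)
    {V : Set ℂ} (hV : V ∈ 𝓝 (z + cis α)) :
    ∀ᶠ x in 𝓝 z, dist x (z + cis α) < 1 → ∃ w ∈ V, dist w x = 1 ∧ 1 < dist w z ∧
      ∀ᶠ w' in 𝓝 w, e ∉ Pal U w' ∧ f ∉ Pal U w' := by
  have hpi := Real.pi_pos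
  set ω := τ * (Real.pi / 3) with hωdef
  have hω : ω = Real.pi / 3 ∨ ω = -(Real.pi / 3) := by
    rcases hτ with rfl | rfl
    · left; rw [hωdef]; ring
    · right; rw [hωdef]; ring
  have hneg : (-ω = Real.pi / 3 ∨ -ω = -(Real.pi / 3)) := by
    rcases hω with h | h
    · right; rw [h]
    · left; rw [h]; ring
  have hτ1 : |τ| = 1 := by rcases hτ with rfl | rfl <;> simp
  set y0 := z + cis α with hy0
  set y1 := z + cis (α + ω) with hy1
  set y5 := z + cis (α - ω) with hy5
  have d0 : dist y0 z = 1 := dist_add_cis z α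
  have d1 : dist y1 z = 1 := dist_add_cis z _
  have d5 : dist y5 z = 1 := dist_add_cis z _
  have d05 : dist y0 y5 = 1 := by
    have := dist_third z α hneg
    rwa [show α + -ω = α - ω by ring] at this
  have d01 : dist y0 y1 = 1 := dist_third z α hω
  have hy1' : z + y0 - y5 = y1 := by
    rw [hy0, hy1, hy5]; linear_combination -cis_third α hω
  obtain ⟨ε, hε, harc⟩ := P.arc
  set η := min (ε / 2) (Real.pi / 3) with hη
  have hη0 : 0 < η := lt_min (by linarith) (by positivity)
  have hηε : η < ε := lt_of_le_of_lt (min_le_left _ _) (by linarith)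
  have hηπ : η ≤ Real.pi / 3 := min_le_right _ _
  -- `f` is absent outside `D(y1)`
  have hconf : ∀ᶠ w in 𝓝 y0, 1 < dist w y1 → f ∉ Pal U w := by
    have hc : Continuous fun s : ℝ => z + cis (α + ω - τ * s) :=
      continuous_const.add (continuous_cis.comp (by fun_prop))
    have hK1 := C.pur_next P hω
    have hm : ∀ s ∈ Icc 0 η, f ∈ Pal U (z + cis (α + ω - τ * s)) := by
      intro s hs
      rcases hs.1.lt_or_eq with h1 | h1
      · have hs2 : s < ε := lt_of_le_of_lt hs.2 hηε
        have h2 := dist_third z (α - τ * s) hω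
        rw [show α - τ * s + ω = α + ω - τ * s by ring] at h2
        have h3 := C.swap.rot (dist_add_cis z _) (dist_add_cis z _) h2 (harc s h1 hs2)
        rcases C.hM _ (dist_add_cis z (α + ω - τ * s)) with h4 | h4
        · exact absurd (C.irr.sub _ h4) h3
        · exact C.irr.sub _ h4
      · rw [← h1, mul_zero, sub_zero]; exact C.irr.sub _ hK1.K.1
    have := conf_near C.irr.mx hc hη0.le hm (w0 := y0) (by
      rw [hy0]
      refine near_cis z ?_
      rw [hωdef, show α + τ * (Real.pi / 3) - τ * η - α = τ * (Real.pi / 3 - η) by ring,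
        abs_mul, hτ1, one_mul, abs_of_nonneg (by linarith)]
      linarith)
    simpa using this
  -- the neighbourhood of `y0`
  set V1 : Set ℂ := interior V ∩ {w | ∀ᶠ w' in 𝓝 w, (1 < dist w' y1 → f ∉ Pal U w')} ∩ ball y0 (1 / 2)
    with hV1
  have hV1m : V1 ∈ 𝓝 y0 :=
    inter_mem (inter_mem (interior_mem_nhds.2 hV) (eventually_eventually_nhds.2 hconf))
      (ball_mem_nhds y0 (by norm_num))
  have htri := ne_of_tri (a := y0) (b := y5) (c := z) d05 d0 d5
  have hcross := cross_nhds (c := y5) (q₀ := z) (p := y0) d05 d0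
    (by rintro h; rw [h] at d5; simp at d5) htri.2 hV1m
  have hxb : ∀ᶠ x in 𝓝 z, dist x z < 1 / 2 := ball_mem_nhds z (by norm_num)
  filter_upwards [hcross, hxb] with x hx hxz hxy
  obtain ⟨ws, hwsV, hws5, hwsx⟩ := hx
  have hwsy : dist ws y0 < 1 / 2 := hwsV.2
  obtain ⟨hg1, hg2⟩ := G1 d0 d5 d05 hws5 hwsx hxz (by linarith) hxy
  rw [hy1'] at hg2
  -- neighbourhood of `ws`
  set V2 : Set ℂ := interior V ∩ {w | ∀ᶠ w' in 𝓝 w, (1 < dist w' y1 → f ∉ Pal U w')} ∩
    {w | 1 < dist w z} ∩ {w | dist w z < 2} ∩ {w | 1 < dist w y1} with hV2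
  have hc1 : Continuous fun w : ℂ => dist w z := by fun_prop
  have hc2 : Continuous fun w : ℂ => dist w y1 := by fun_prop
  have hV2m : V2 ∈ 𝓝 ws := by
    refine inter_mem (inter_mem (inter_mem (inter_mem ?_ ?_) ?_) ?_) ?_
    · exact isOpen_interior.mem_nhds hwsV.1.1
    · exact eventually_eventually_nhds.2 hwsV.1.2
    · exact (isOpen_lt continuous_const hc1).mem_nhds hg1
    · refine (isOpen_lt hc1 continuous_const).mem_nhds ?_
      have := dist_triangle ws y0 z
      show dist ws z < 2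
      linarith
    · exact (isOpen_lt continuous_const hc2).mem_nhds hg2
  have hxy5 : dist x y5 < 2 := by
    have h1 := dist_triangle x z y5
    have h2 : dist z y5 = 1 := by rw [dist_comm]; exact d5
    linarith
  have hcross2 := cross_nhds (c := x) (q₀ := y5) (p := ws) hwsx hws5
    (by
      rintro rfl
      rw [d5] at hxz; norm_num at hxz)
    (by
      intro h
      have h1 : x - y5 = 2 * (ws - y5) := by linear_combination h
      have h2 : ‖ws - y5‖ = 1 := by rw [← dist_eq_norm]; exact hws5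
      rw [dist_eq_norm, h1, norm_mul, h2] at hxy5
      norm_num at hxy5) hV2m
  -- choose a point of the circle about `z` near `y5`
  have hc3 : Continuous fun s : ℝ => z + cis (α - ω + τ * s) :=
    continuous_const.add (continuous_cis.comp (by fun_prop))
  have hev : ∀ᶠ s in 𝓝 (0 : ℝ), ∃ p' ∈ V2, dist p' x = 1 ∧
      dist p' (z + cis (α - ω + τ * s)) = 1 := by
    have h1 : z + cis (α - ω + τ * 0) = y5 := by
      rw [mul_zero, add_zero]
    have h2 : Tendsto (fun s : ℝ => z + cis (α - ω + τ * s)) (𝓝 0)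
      (𝓝 (z + cis (α - ω + τ * 0))) := hc3.continuousAt (x := 0)
    rw [h1] at h2
    exact h2.eventually hcross2
  obtain ⟨δ, hδ, hδ'⟩ := Metric.eventually_nhds_iff.1 hev
  obtain ⟨s, hs1, hs2, hs3⟩ := P.acc δ hδ
  obtain ⟨w, hwV2, hwx, hwq⟩ := hδ' (y := s) (by
    rw [Real.dist_eq, sub_zero, abs_of_pos hs1]; exact hs2)
  set q := z + cis (α - ω + τ * s) with hq
  obtain ⟨⟨⟨⟨hw1, hw2⟩, hw3⟩, hw4⟩, hw5⟩ := hwV2
  have hw3 : 1 < dist w z := hw3
  have hw4 : dist w z < 2 := hw4
  refine ⟨w, interior_subset hw1, hwx, hw3, ?_⟩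
  have hfq : f ∉ T q := by
    have h2 := dist_third z (α + τ * s) hneg
    rw [show α + τ * s + -ω = α - ω + τ * s by ring] at h2
    exact fun h3 => C.rot (dist_add_cis z _) (dist_add_cis z _) h2 hs3 (C.irr.sub _ h3)
  have hqz : dist q z = 1 := dist_add_cis z _
  have hqw : dist q w = 1 := by rw [dist_comm]; exact hwq
  have hzw : z ≠ w := by rintro rfl; simp at hw3; linarith
  have hlin : ∀ w' q' : ℂ, dist w' z < 2 → dist q' z = 1 → w' + z ≠ 2 * q' := by
    intro w' q' h1 h2 h3
    have h4 : w' - z = 2 * (q' - z) := by linear_combination h3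
    rw [dist_eq_norm] at h1 h2
    rw [h4, norm_mul, h2] at h1
    norm_num at h1
  have hcross3 := cross_nhds (c := z) (q₀ := w) (p := q) hqz hqw hzw
    (by intro h; exact hlin w q hw4 hqz (by rw [add_comm]; exact h))
    ((C.irr.closed f).isOpen_compl.mem_nhds hfq)
  filter_upwards [hcross3, hw2, (isOpen_lt continuous_const hc2).mem_nhds hw5,
    (isOpen_lt continuous_const hc1).mem_nhds hw3, (isOpen_lt hc1 continuous_const).mem_nhds hw4]
    with w' h1 h2 h3 h4 h5
  have h4 : 1 < dist w' z := h4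
  refine ⟨?_, h2 h3⟩
  obtain ⟨q', hq'1, hq'2, hq'3⟩ := h1
  exact C.swap.no_e hq'2 hq'1 hq'3 (by rintro rfl; simp at h4; linarith) (hlin w' q' h5 hq'2)

end Ctx

end Vale.Agent.P032.Six.H825
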