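import Vale.Agent.P032.S5.H825.Alt

/-!
# P032: neighbouring palettes of the hexagon have no common colour of the centre
-/

open Set Filter Topology Metric

noncomputable section

namespace Vale.Agent.P032.Six.H825

open Vale.Agent.P032.Six

variable {k : ℕ} {U : Fin k → Set ℂ} {T : ℂ → Set (Fin k)}

theorem re_cis (t : ℝ) : (cis t).re = Real.cos t := by
  rw [cis, Complex.exp_ofReal_mul_I_re]

theorem im_cis (t : ℝ) : (cis t).im = Real.sin t := by
  rw [cis, Complex.exp_ofReal_mul_I_im]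

theorem cis_add (a b : ℝ) : cis (a + b) = cis a * cis b := by
  unfold cis; rw [← Complex.exp_add]; congr 1; push_cast; ring

theorem sq_cis (z : ℂ) (a b : ℝ) : dist (z + cis a) (z + cis b) ^ 2 = 2 - 2 * Real.cos (a - b) := by
  rw [Six.sq_dist]
  simp only [Complex.add_re, Complex.add_im, re_cis, im_cis]
  rw [Real.cos_sub]
  nlinarith [Real.sin_sq_add_cos_sq a, Real.sin_sq_add_cos_sq b]

theorem near_cis (z : ℂ) {a b : ℝ} (h : |a - b| < Real.pi / 3) :
    dist (z + cis a) (z + cis b) < 1 := by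
  have h1 := sq_cis z a b
  have h2 : 1 / 2 < Real.cos (a - b) := by
    rw [← Real.cos_pi_div_three, ← Real.cos_abs (a - b)]
    exact Real.cos_lt_cos_of_nonneg_of_le_pi (abs_nonneg _) (by linarith [Real.pi_pos]) h
  have := dist_nonneg (x := z + cis a) (y := z + cis b)
  nlinarith

theorem far_cis (z : ℂ) {a b : ℝ} (h : Real.pi / 3 < |a - b|) (h' : |a - b| ≤ Real.pi) :
    1 < dist (z + cis a) (z + cis b) := by
  have h1 := sq_cis z a b
  have h2 : Real.cos (a - b) < 1 / 2 := by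
    rw [← Real.cos_pi_div_three, ← Real.cos_abs (a - b)]
    exact Real.cos_lt_cos_of_nonneg_of_le_pi (by linarith [Real.pi_pos]) h' h
  have := dist_nonneg (x := z + cis a) (y := z + cis b)
  nlinarith

theorem cis_third (a : ℝ) {ω : ℝ} (hω : ω = Real.pi / 3 ∨ ω = -(Real.pi / 3)) :
    cis (a + ω) + cis (a - ω) = cis a := by
  have hc : Real.cos ω = 1 / 2 := by
    rcases hω with rfl | rfl
    · exact Real.cos_pi_div_three
    · rw [Real.cos_neg]; exact Real.cos_pi_div_three
  apply Complex.ext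
  · rw [Complex.add_re, re_cis, re_cis, re_cis, Real.cos_add, Real.cos_sub, hc]; ring
  · rw [Complex.add_im, im_cis, im_cis, im_cis, Real.sin_add, Real.sin_sub, hc]; ring

/-- local inverse of the parametrisation of a circle -/
theorem local_param (z : ℂ) (t0 : ℝ) {δ : ℝ} (hδ : 0 < δ) :
    ∀ᶠ x in 𝓝 (z + cis t0), dist x z = 1 → ∃ t, |t - t0| < δ ∧ x = z + cis t := by
  have h0 : cis t0 ≠ 0 := by
    intro h; have := norm_cis t0; rw [h] at this; simp at this
  have hg : ContinuousAt (fun x : ℂ => Complex.arg ((x - z) / cis t0)) (z + cis t0) := by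
    have h1 : ContinuousAt (fun x : ℂ => (x - z) / cis t0) (z + cis t0) := by fun_prop
    have h2 : (z + cis t0 - z) / cis t0 = 1 := by rw [add_sub_cancel_left, div_self h0]
    have h5 : ContinuousAt Complex.arg ((z + cis t0 - z) / cis t0) := by
      rw [h2]; exact Complex.continuousAt_arg (by simp)
    exact ContinuousAt.comp (g := Complex.arg) (f := fun x : ℂ => (x - z) / cis t0) h5 h1
  have h3 : Complex.arg ((z + cis t0 - z) / cis t0) = 0 := by
    rw [add_sub_cancel_left, div_self h0]; simp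
  have hev : ∀ᶠ x in 𝓝 (z + cis t0), |Complex.arg ((x - z) / cis t0)| < δ := by
    have h4 : ∀ᶠ y in 𝓝 (Complex.arg ((z + cis t0 - z) / cis t0)), |y| < δ := by
      rw [h3]
      have h5 : Metric.ball (0 : ℝ) δ ∈ 𝓝 (0 : ℝ) := Metric.ball_mem_nhds 0 hδ
      filter_upwards [h5] with y hy
      simpa [Real.dist_eq] using hy
    exact hg.eventually h4
  filter_upwards [hev] with x hx hxz
  refine ⟨t0 + Complex.arg ((x - z) / cis t0), by rw [add_sub_cancel_left]; exact hx, ?_⟩
  have hn : ‖(x - z) / cis t0‖ = 1 := by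
    rw [norm_div, norm_cis, div_one, ← dist_eq_norm]; exact hxz
  have h6 : (x - z) / cis t0 = cis (Complex.arg ((x - z) / cis t0)) := by
    have := Complex.norm_mul_exp_arg_mul_I ((x - z) / cis t0)
    rw [hn] at this
    simpa [cis] using this.symm
  rw [cis_add, ← h6]
  field_simp
  ring

/-- the two neighbours -/
theorem two_nbs {z : ℂ} {a : ℝ} {y' : ℂ} (hy' : dist y' z = 1) (h : dist (z + cis a) y' = 1) :
    ∃ ω, (ω = Real.pi / 3 ∨ ω = -(Real.pi / 3)) ∧ y' = z + cis (a + ω) := by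
  obtain ⟨b, hb⟩ := exists_cis (u := y' - z) (by rw [← dist_eq_norm]; exact hy')
  have hb' : y' = z + cis b := by rw [← hb]; ring
  have h1 := sq_cis z a b
  rw [hb'] at h
  rw [h] at h1
  have hc : Real.cos (b - a) = 1 / 2 := by
    rw [← Real.cos_neg, neg_sub]; linarith
  have hs : Real.sin (b - a) = Real.sin (Real.pi / 3) ∨ Real.sin (b - a) = -Real.sin (Real.pi / 3) := by
    have h2 := Real.sin_sq_add_cos_sq (b - a)
    have h3 := Real.sin_sq_add_cos_sq (Real.pi / 3)
    rw [hc] at h2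
    rw [Real.cos_pi_div_three] at h3
    exact sq_eq_sq_iff_eq_or_eq_neg.1 (by linarith)
  rcases hs with hs | hs
  · refine ⟨Real.pi / 3, Or.inl rfl, ?_⟩
    rw [hb', cis_add]
    have : cis b = cis a * cis (b - a) := by rw [← cis_add]; congr 1; ring
    rw [this]
    congr 2
    apply Complex.ext
    · rw [re_cis, re_cis, hc, Real.cos_pi_div_three]
    · rw [im_cis, im_cis, hs]
  · refine ⟨-(Real.pi / 3), Or.inr rfl, ?_⟩
    rw [hb', cis_add]
    have : cis b = cis a * cis (b - a) := by rw [← cis_add]; congr 1; ring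
    rw [this]
    congr 2
    apply Complex.ext
    · rw [re_cis, re_cis, hc, Real.cos_neg, Real.cos_pi_div_three]
    · rw [im_cis, im_cis, hs, Real.sin_neg]

namespace Ctx

variable {z : ℂ} {e f : Fin k}

theorem dist_third (z : ℂ) (a : ℝ) {ω : ℝ} (hω : ω = Real.pi / 3 ∨ ω = -(Real.pi / 3)) :
    dist (z + cis a) (z + cis (a + ω)) = 1 :=
  dist_cis_third z _ _ (by rcases hω with rfl | rfl <;> [right; left] <;> ring)

/-- near a point with both letters there are points of the circle without `e` -/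
theorem freq_no (C : Ctx U T z e f) {t0 : ℝ} (hK : e ∈ T (z + cis t0) ∧ f ∈ T (z + cis t0))
    {δ : ℝ} (hδ : 0 < δ) : ∃ t, |t - t0| < δ ∧ e ∉ T (z + cis t) := by
  by_contra hcon
  push Not at hcon
  have hy := dist_add_cis z t0
  obtain ⟨y', hy', hyy⟩ := exists_nb hy
  have h' := C.both hy hy' hyy hK
  have hJ : ∀ᶠ x in 𝓝[sphere z 1] (z + cis t0), e ∈ Pal U x := by
    filter_upwards [mem_nhdsWithin_of_mem_nhds (local_param z t0 hδ), self_mem_nhdsWithin]
      with x hx hxz
    obtain ⟨t, ht, rfl⟩ := hx hxz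
    exact C.irr.sub _ (hcon t ht)
  have hzy' : z ≠ y' := by rintro rfl; simp at hy'
  rcases C.irr.mx.partner_line hy hJ hyy (C.irr.sub y' h'.1) with h1 | h1
  · exact hzy' h1.symm
  · exact (ne_of_tri (a := z + cis t0) (b := y') (c := z) hyy hy hy').2 h1

/-- an end of an arc without `e` near a given point with both letters -/
theorem exists_end (C : Ctx U T z e f) {t0 : ℝ} (hK : e ∈ T (z + cis t0) ∧ f ∈ T (z + cis t0))
    {δ : ℝ} (hδ : 0 < δ) : ∃ α τ ε : ℝ, |α - t0| < δ ∧ (τ = 1 ∨ τ = -1) ∧ 0 < ε ∧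
      (e ∈ T (z + cis α) ∧ f ∈ T (z + cis α)) ∧
      ∀ s, 0 < s → s < ε → e ∉ T (z + cis (α + τ * s)) := by
  obtain ⟨t, ht, het⟩ := C.freq_no hK hδ
  obtain ⟨ρ, hρ, r, hr, hrt⟩ : ∃ ρ : ℝ, (ρ = 1 ∨ ρ = -1) ∧ ∃ r, 0 < r ∧ t = t0 + ρ * r := by
    rcases lt_trichotomy t t0 with h1 | h1 | h1
    · exact ⟨-1, Or.inr rfl, t0 - t, by linarith, by ring⟩
    · exfalso; rw [h1] at het; exact het hK.1
    · exact ⟨1, Or.inl rfl, t - t0, by linarith, by ring⟩
  have hρ1 : |ρ| = 1 := by rcases hρ with rfl | rfl <;> simp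
  have hrδ : r < δ := by
    rw [hrt, add_sub_cancel_left, abs_mul, hρ1, one_mul, abs_of_pos hr] at ht
    exact ht
  have hc : Continuous fun s : ℝ => z + cis (t0 + ρ * s) :=
    continuous_const.add (continuous_cis.comp (by fun_prop))
  have hcl : IsClosed {s : ℝ | e ∈ T (z + cis (t0 + ρ * s))} := (C.irr.closed e).preimage hc
  have hclf : IsClosed {s : ℝ | f ∈ T (z + cis (t0 + ρ * s))} := (C.irr.closed f).preimage hc
  set S : Set ℝ := {s : ℝ | e ∈ T (z + cis (t0 + ρ * s))} ∩ Icc 0 r with hS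
  have hScl : IsClosed S := hcl.inter isClosed_Icc
  have h0 : (0 : ℝ) ∈ S := ⟨by
    have : e ∈ T (z + cis (t0 + ρ * 0)) := by simpa using hK.1
    exact this, le_rfl, hr.le⟩
  have hbdd : BddAbove S := ⟨r, fun s hs => hs.2.2⟩
  have hm := hScl.csSup_mem ⟨0, h0⟩ hbdd
  set m := sSup S with hmdef
  have hmr : m < r := by
    rcases hm.2.2.lt_or_eq with h1 | h1
    · exact h1
    · exfalso
      have h2 : e ∈ T (z + cis (t0 + ρ * m)) := hm.1
      rw [h1, ← hrt] at h2
      exact het h2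
  have hfree : ∀ s, m < s → s ≤ r → e ∉ T (z + cis (t0 + ρ * s)) := by
    intro s hs1 hs2 hcon
    exact absurd (le_csSup hbdd ⟨hcon, hm.2.1.trans hs1.le, hs2⟩) (not_le.2 hs1)
  have hfm : f ∈ T (z + cis (t0 + ρ * m)) := by
    have h1 : closure (Ioc m r) ⊆ {s : ℝ | f ∈ T (z + cis (t0 + ρ * s))} := by
      refine hclf.closure_subset_iff.2 fun s hs => ?_
      rcases C.hM _ (dist_add_cis z (t0 + ρ * s)) with h2 | h2
      · exact absurd h2 (hfree s hs.1 hs.2)
      · exact h2
    rw [closure_Ioc hmr.ne] at h1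
    exact h1 ⟨le_rfl, hmr.le⟩
  refine ⟨t0 + ρ * m, ρ, r - m, ?_, hρ, by linarith, ⟨hm.1, hfm⟩, ?_⟩
  · rw [add_sub_cancel_left, abs_mul, hρ1, one_mul, abs_of_nonneg hm.2.1]
    exact lt_of_le_of_lt hmr.le hrδ
  · intro s hs1 hs2
    have : t0 + ρ * m + ρ * s = t0 + ρ * (m + s) := by ring
    rw [this]
    exact hfree (m + s) (by linarith) (by linarith)

/-- no layering, in the form used here -/
theorem no_layer' (C : Ctx U T z e f) {y' a : ℂ} {P : Set (Fin k)} (hP : P.ncard ≤ 3)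
    (hq : dist a y' = 1) (hT : T a = P) : ∀ᶠ x in 𝓝 y', T x ≠ P := by
  filter_upwards [C.irr.no_layer hq] with x hx hcon
  have := hx (by rw [hT, hcon])
  rw [hcon] at this
  omega

/-- exact pairs at both ends -/
theorem opp (C : Ctx U T z e f) {y y' : ℂ} (hy : dist y z = 1) (hy' : dist y' z = 1)
    (hyy : dist y y' = 1) (h : e ∈ T y ∧ f ∈ T y) {a : Fin k} (ha : a ∈ T y) (ha' : a ∈ T y')
    (haz : a ∈ T z) (X : ∃ᶠ w in 𝓝 y, dist w y' = 1 ∧ T w = {e, a}) :
    ∃ᶠ w in 𝓝 y', dist w y = 1 ∧ T w = {f, a} := by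
  have hyy' : dist y' y = 1 := by rw [dist_comm]; exact hyy
  have h' := C.both hy hy' hyy h
  have hae : a ≠ e := by rintro rfl; exact C.ez haz
  obtain ⟨q, hq1, hqT⟩ := X.exists
  have hno := C.no_layer' (y' := y') (P := {e, a}) (by rw [Set.ncard_pair hae.symm]; norm_num) hq1 hqT
  refine ((C.share hy' hy hyy' h' ha' ha haz).and_eventually hno).mono ?_
  rintro w ⟨⟨h1, h2 | h2⟩, h3⟩
  · exact absurd h2 h3
  · exact ⟨h1, h2⟩

/-- the case of an exact pair `{e, a}` -/
theorem noshare1 (C : Ctx U T z e f) {y y' : ℂ} (hy : dist y z = 1) (hy' : dist y' z = 1)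
    (hyy : dist y y' = 1) (h : e ∈ T y ∧ f ∈ T y) {a : Fin k} (ha : a ∈ T y) (ha' : a ∈ T y')
    (haz : a ∈ T z) (X : ∃ᶠ w in 𝓝 y, dist w y' = 1 ∧ T w = {e, a}) : False := by
  have hae : a ≠ e := by rintro rfl; exact C.ez haz
  have haf : a ≠ f := by rintro rfl; exact C.fz haz
  have h' := C.both hy hy' hyy h
  have X' := C.opp hy hy' hyy h ha ha' haz X
  obtain ⟨q, hq1, hqT⟩ := X'.exists
  have hno := C.no_layer' (y' := y) (P := {f, a}) (by rw [Set.ncard_pair haf.symm]; norm_num) hq1 hqT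
  obtain ⟨t0, ht0⟩ := exists_cis (u := y - z) (by rw [← dist_eq_norm]; exact hy)
  have hyt : y = z + cis t0 := by rw [← ht0]; ring
  rw [hyt] at hyy hno h
  obtain ⟨ω, hω, hy't⟩ := two_nbs hy' hyy
  -- near `t0` the palettes are constant at points with both letters
  have hc1 : Continuous fun t : ℝ => z + cis t := continuous_const.add continuous_cis
  have hc2 : Continuous fun t : ℝ => z + cis (t + ω) :=
    continuous_const.add (continuous_cis.comp (by fun_prop))
  have hev : ∀ᶠ t in 𝓝 t0, (T (z + cis t) ⊆ T y) ∧ (T (z + cis (t + ω)) ⊆ T y') ∧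
      ∀ᶠ x in 𝓝 (z + cis t), T x ≠ {f, a} := by
    have e1 : ∀ᶠ t in 𝓝 t0, T (z + cis t) ⊆ T y := by
      have := C.irr.nhd (z + cis t0)
      rw [← hyt] at this
      rw [hyt] at this
      rw [hyt]
      exact hc1.continuousAt.eventually this
    have e2 : ∀ᶠ t in 𝓝 t0, T (z + cis (t + ω)) ⊆ T y' := by
      have := C.irr.nhd (z + cis (t0 + ω))
      rw [hy't]
      exact hc2.continuousAt.eventually this
    have e3 : ∀ᶠ t in 𝓝 t0, ∀ᶠ x in 𝓝 (z + cis t), T x ≠ {f, a} :=
      hc1.continuousAt.eventually (eventually_eventually_nhds.2 hno)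
    exact e1.and (e2.and e3)
  obtain ⟨δ, hδ, hδ'⟩ := Metric.eventually_nhds_iff.1 hev
  obtain ⟨α, τ, ε, hα, hτ, hε, hKα, hfree⟩ := C.exists_end h hδ
  obtain ⟨k1, k2, k3⟩ := hδ' (y := α) (by rw [Real.dist_eq]; exact hα)
  set y0 := z + cis α with hy0
  set y1 := z + cis (α + ω) with hy1
  have d0 : dist y0 z = 1 := dist_add_cis z α
  have d1 : dist y1 z = 1 := dist_add_cis z (α + ω)
  have d01 : dist y0 y1 = 1 := dist_third z α hω
  have hK1 : e ∈ T y1 ∧ f ∈ T y1 := C.both d0 d1 d01 hKα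
  have hT0 : T y0 = T y := Set.eq_of_subset_of_ncard_le k1
    (by rw [C.card4 d0 hKα, hyt, C.card4 (dist_add_cis z t0) h]) (Set.toFinite _)
  have hT1 : T y1 = T y' := Set.eq_of_subset_of_ncard_le k2
    (by rw [C.card4 d1 hK1, C.card4 hy' h']) (Set.toFinite _)
  have ha0 : a ∈ T y0 := by rw [hT0]; exact ha
  have ha1 : a ∈ T y1 := by rw [hT1]; exact ha'
  -- the exact pair at `y0`
  have X0 : ∃ᶠ w in 𝓝 y0, dist w y1 = 1 ∧ T w = {e, a} := by
    refine ((C.share d0 d1 d01 hKα ha0 ha1 haz).and_eventually k3).mono ?_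
    rintro w ⟨⟨h1, h2 | h2⟩, h3⟩
    · exact ⟨h1, h2⟩
    · exact absurd h2 h3
  have X1 := C.opp d0 d1 d01 hKα ha0 ha1 haz X0
  -- letters on the arcs
  have hω' : |ω| = Real.pi / 3 := by
    rcases hω with rfl | rfl
    · rw [abs_of_pos (by positivity)]
    · rw [abs_neg, abs_of_pos (by positivity)]
  have aux : ∀ β ω' : ℝ, (ω' = Real.pi / 3 ∨ ω' = -(Real.pi / 3)) →
      dist (z + cis β) (z + cis (β + ω')) = 1 := fun β ω' h1 => dist_third z β h1
  have lf : ∀ s, 0 ≤ s → s < ε → f ∈ T (z + cis (α + τ * s)) := by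
    intro s hs1 hs2
    rcases hs1.lt_or_eq with h1 | h1
    · rcases C.hM _ (dist_add_cis z (α + τ * s)) with h2 | h2
      · exact absurd h2 (hfree s h1 hs2)
      · exact h2
    · rw [← h1, mul_zero, add_zero]; exact hKα.2
  have le : ∀ ω', (ω' = Real.pi / 3 ∨ ω' = -(Real.pi / 3)) → ∀ s, 0 ≤ s → s < ε →
      e ∈ T (z + cis (α + ω' + τ * s)) ∧ (0 < s → f ∉ T (z + cis (α + ω' + τ * s))) := by
    intro ω' hω' s hs1 hs2
    have hd : dist (z + cis (α + τ * s)) (z + cis (α + ω' + τ * s)) = 1 := by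
      have := aux (α + τ * s) ω' hω'
      rwa [show α + τ * s + ω' = α + ω' + τ * s by ring] at this
    rcases hs1.lt_or_eq with h1 | h1
    · have h2 := C.rot (dist_add_cis z _) (dist_add_cis z _) hd (hfree s h1 hs2)
      have h3 : f ∉ T (z + cis (α + ω' + τ * s)) := fun h4 => h2 (C.irr.sub _ h4)
      refine ⟨?_, fun _ => h3⟩
      rcases C.hM _ (dist_add_cis z (α + ω' + τ * s)) with h4 | h4
      · exact h4
      · exact absurd h4 h3
    · refine ⟨(C.both (dist_add_cis z _) (dist_add_cis z _) hd ?_).1, fun h2 => ?_⟩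
      · rw [← h1, mul_zero, add_zero]; exact hKα
      · exact absurd h2 (by rw [← h1]; exact lt_irrefl 0)
  have lf2 : ∀ s, 0 ≤ s → s < ε → f ∈ T (z + cis (α + 2 * ω + τ * s)) := by
    intro s hs1 hs2
    have hd : dist (z + cis (α + ω + τ * s)) (z + cis (α + 2 * ω + τ * s)) = 1 := by
      have := aux (α + ω + τ * s) ω hω
      rwa [show α + ω + τ * s + ω = α + 2 * ω + τ * s by ring] at this
    rcases hs1.lt_or_eq with h1 | h1
    · have h2 := C.swap.rot (dist_add_cis z _) (dist_add_cis z _) hd ((le ω hω s hs1 hs2).2 h1)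
      rcases C.hM _ (dist_add_cis z (α + 2 * ω + τ * s)) with h4 | h4
      · exact absurd (C.irr.sub _ h4) h2
      · exact h4
    · refine (C.both (dist_add_cis z _) (dist_add_cis z _) hd ?_).2
      rw [← h1, mul_zero, add_zero]; exact hK1
  -- the other points
  have hy5 : z + y0 - y1 = z + cis (α - ω) := by
    rw [hy0, hy1]; linear_combination -cis_third α hω
  have hy2 : z + y1 - y0 = z + cis (α + 2 * ω) := by
    rw [hy0, hy1]
    have := cis_third (α + ω) hω
    rw [show α + ω + ω = α + 2 * ω by ring, show α + ω - ω = α by ring] at this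
    linear_combination -this
  have hneg : (-ω = Real.pi / 3 ∨ -ω = -(Real.pi / 3)) := by
    rcases hω with rfl | rfl
    · right; rfl
    · left; ring
  set η := min (ε / 2) (Real.pi / 3) with hη
  have hη0 : 0 < η := lt_min (by linarith) (by positivity)
  have hηε : η < ε := lt_of_le_of_lt (min_le_left _ _) (by linarith)
  have hηπ : η ≤ Real.pi / 3 := min_le_right _ _
  have hcc : ∀ β : ℝ, Continuous fun s : ℝ => z + cis (β + τ * s) := fun β =>
    continuous_const.add (continuous_cis.comp (by fun_prop))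
  have hpi := Real.pi_pos
  -- confinement lemmas
  have far : ∀ (m : Fin k) (β γ : ℝ), (∀ s, 0 ≤ s → s < ε → m ∈ T (z + cis (β + τ * s))) →
      |β + τ * η - γ| = Real.pi / 3 + η →
      ∀ᶠ w in 𝓝 (z + cis γ), dist w (z + cis β) < 1 → m ∉ Pal U w := by
    intro m β γ hm hab
    have := conf_far C.irr.mx (hcc β) hη0.le (m := m)
      (fun s hs => C.irr.sub _ (hm s hs.1 (lt_of_le_of_lt hs.2 hηε))) (w0 := z + cis γ)
      (far_cis z (by rw [hab]; linarith) (by rw [hab]; linarith))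
    simpa using this
  have near : ∀ (m : Fin k) (β γ : ℝ), (∀ s, 0 ≤ s → s < ε → m ∈ T (z + cis (β + τ * s))) →
      |β + τ * η - γ| = Real.pi / 3 - η →
      ∀ᶠ w in 𝓝 (z + cis γ), 1 < dist w (z + cis β) → m ∉ Pal U w := by
    intro m β γ hm hab
    have := conf_near C.irr.mx (hcc β) hη0.le (m := m)
      (fun s hs => C.irr.sub _ (hm s hs.1 (lt_of_le_of_lt hs.2 hηε))) (w0 := z + cis γ)
      (near_cis z (by rw [hab]; linarith))
    simpa using this
  have le1 : ∀ s, 0 ≤ s → s < ε → e ∈ T (z + cis (α + ω + τ * s)) := fun s h1 h2 =>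
    (le ω hω s h1 h2).1
  have le5 : ∀ s, 0 ≤ s → s < ε → e ∈ T (z + cis (α - ω + τ * s)) := fun s h1 h2 => by
    have := (le (-ω) hneg s h1 h2).1
    rwa [show α + -ω + τ * s = α - ω + τ * s by ring] at this
  have z0 : dist z y0 = 1 := by rw [dist_comm]; exact d0
  have z1 : dist z y1 = 1 := by rw [dist_comm]; exact d1
  have hef := C.hef
  have n0e : ¬ T y0 ⊆ {e, a} := by
    intro h1
    rcases h1 hKα.2 with h2 | h2
    · exact hef h2.symm
    · exact haf (by simpa using h2.symm)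
  have n1f : ¬ T y1 ⊆ {f, a} := by
    intro h1
    rcases h1 hK1.1 with h2 | h2
    · exact hef h2
    · exact hae (by simpa using h2.symm)
  -- same or opposite side
  have hcase : τ * (Real.pi / 3) = ω ∨ τ * (Real.pi / 3) = -ω := by
    rcases hτ with rfl | rfl <;> rcases hω with rfl | rfl
    · left; ring
    · right; ring
    · right; ring
    · left; ring
  have hτ1 : |τ| = 1 := by rcases hτ with rfl | rfl <;> simp
  rcases hcase with hcs | hcs
  · refine fin_contra C.irr (z := z) (y0 := y0) (y1 := y1) (e := e) (f := f) (a := a) d01 z0 z1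
      ?_ ?_ ?_ n0e n1f X0 X1
    · refine far e (α + ω) α le1 ?_
      rw [← hcs, show α + τ * (Real.pi / 3) + τ * η - α = τ * (Real.pi / 3 + η) by ring,
        abs_mul, hτ1, one_mul, abs_of_pos (by linarith)]
    · rw [hy5]
      refine near e (α - ω) α le5 ?_
      rw [← hcs, show α - τ * (Real.pi / 3) + τ * η - α = -(τ * (Real.pi / 3 - η)) by ring,
        abs_neg, abs_mul, hτ1, one_mul, abs_of_nonneg (by linarith)]
    · rw [hy2]
      refine far f (α + 2 * ω) (α + ω) lf2 ?_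
      rw [← hcs, show α + 2 * (τ * (Real.pi / 3)) + τ * η - (α + τ * (Real.pi / 3)) =
        τ * (Real.pi / 3 + η) by ring, abs_mul, hτ1, one_mul, abs_of_pos (by linarith)]
  · have hcs' : ω = -(τ * (Real.pi / 3)) := by linarith
    refine fin_contra C.irr (z := z) (y0 := y1) (y1 := y0) (e := f) (f := e) (a := a)
      (by rw [dist_comm]; exact d01) z1 z0 ?_ ?_ ?_ n1f n0e X1 X0
    · refine far f α (α + ω) lf ?_
      rw [hcs', show α + τ * η - (α + -(τ * (Real.pi / 3))) = τ * (Real.pi / 3 + η) by ring,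
        abs_mul, hτ1, one_mul, abs_of_pos (by linarith)]
    · rw [hy2]
      refine near f (α + 2 * ω) (α + ω) lf2 ?_
      rw [hcs', show α + 2 * -(τ * (Real.pi / 3)) + τ * η - (α + -(τ * (Real.pi / 3))) =
        -(τ * (Real.pi / 3 - η)) by ring, abs_neg, abs_mul, hτ1, one_mul,
        abs_of_nonneg (by linarith)]
    · rw [hy5]
      refine far e (α - ω) α le5 ?_
      rw [hcs', show α - -(τ * (Real.pi / 3)) + τ * η - α = τ * (Real.pi / 3 + η) by ring,
        abs_mul, hτ1, one_mul, abs_of_pos (by linarith)]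

/-- **Neighbouring palettes of the hexagon have no common colour of the centre.** -/
theorem noshare (C : Ctx U T z e f) {y y' : ℂ} (hy : dist y z = 1) (hy' : dist y' z = 1)
    (hyy : dist y y' = 1) (h : e ∈ T y ∧ f ∈ T y) {a : Fin k} (ha : a ∈ T y) (ha' : a ∈ T y') :
    a ∉ T z := by
  intro haz
  have hs := C.share hy hy' hyy h ha ha' haz
  have h1 : (∃ᶠ w in 𝓝 y, dist w y' = 1 ∧ T w = {e, a}) ∨
      ∃ᶠ w in 𝓝 y, dist w y' = 1 ∧ T w = {f, a} := by
    rw [← Filter.frequently_or_distrib]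
    exact hs.mono fun w hw => by tauto
  rcases h1 with h1 | h1
  · exact C.noshare1 hy hy' hyy h ha ha' haz h1
  · exact C.swap.noshare1 hy hy' hyy h.symm ha ha' haz h1

end Ctx

end Vale.Agent.P032.Six.H825
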